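import Vale.Agent.P200E.Defs

/-! Module BASE: base change to a field extension L.  The degree d part of I.map is the L-span of the degree d part of I;
a K-basis of a subspace of K^N stays L-independent in L^N, so dimensions of (S_d) and of (I_d) are preserved. -/

namespace Vale.Agent.P200E

open MvPolynomial

variable {K : Type*} [Field K] (L : Type*) [Field L] [Algebra K L] {n : ℕ}

theorem BASE_comp_X_mul (i : Fin n) (x : MvPolynomial (Fin n) L) (d : ℕ) :
    homogeneousComponent (d + 1) (X i * x) = X i * homogeneousComponent d x := by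
  classical
  ext s
  rw [coeff_homogeneousComponent, coeff_X_mul', coeff_X_mul', coeff_homogeneousComponent]
  by_cases hi : i ∈ s.support
  · simp only [hi, if_true]
    have h1 : s = (s - Finsupp.single i 1) + Finsupp.single i 1 := by
      refine (tsub_add_cancel_of_le ?_).symm
      rw [Finsupp.single_le_iff]
      exact Nat.one_le_iff_ne_zero.2 (Finsupp.mem_support_iff.1 hi)
    have h2 : s.degree = (s - Finsupp.single i 1).degree + 1 := by
      conv_lhs => rw [h1]
      rw [map_add, Finsupp.degree_single]
    by_cases h3 : (s - Finsupp.single i 1).degree = d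
    · rw [if_pos h3, if_pos (by omega)]
    · rw [if_neg h3, if_neg (by omega)]
  · simp [hi]

theorem BASE_comp_X_mul_zero (i : Fin n) (x : MvPolynomial (Fin n) L) :
    homogeneousComponent 0 (X i * x) = 0 := by
  classical
  ext s
  rw [coeff_homogeneousComponent, coeff_X_mul']
  by_cases hi : i ∈ s.support
  · have : s.degree ≠ 0 := by
      intro h
      rw [Finsupp.degree_eq_zero_iff] at h
      subst h
      simp at hi
    simp [this]
  · simp [hi]

theorem BASE_mul (J : Ideal (MvPolynomial (Fin n) L)) (c : MvPolynomial (Fin n) L) :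
    ∀ x : MvPolynomial (Fin n) L, (∀ d, homogeneousComponent d x ∈ J) →
      ∀ d, homogeneousComponent d (c * x) ∈ J := by
  induction c using MvPolynomial.induction_on with
  | C r =>
    intro x hx d
    rw [homogeneousComponent_C_mul]
    exact J.mul_mem_left _ (hx d)
  | add p q hp hq =>
    intro x hx d
    rw [add_mul, map_add]
    exact J.add_mem (hp x hx d) (hq x hx d)
  | mul_X p i hp =>
    intro x hx d
    rw [mul_assoc]
    refine hp _ ?_ d
    intro e
    cases e with
    | zero => rw [BASE_comp_X_mul_zero]; exact J.zero_mem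
    | succ e => rw [BASE_comp_X_mul]; exact J.mul_mem_left _ (hx e)

theorem BASE_comp_map (a : MvPolynomial (Fin n) K) (d : ℕ) :
    homogeneousComponent d (MvPolynomial.map (algebraMap K L) a) =
      MvPolynomial.map (algebraMap K L) (homogeneousComponent d a) := by
  classical
  ext s
  rw [coeff_homogeneousComponent, coeff_map, coeff_map, coeff_homogeneousComponent]
  split_ifs <;> simp

theorem homog_baseChange {I : Ideal (MvPolynomial (Fin n) K)} (hI : IsHomog I) :
    IsHomog (I.map (MvPolynomial.map (algebraMap K L) : MvPolynomial (Fin n) K →+* MvPolynomial (Fin n) L)) := by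
  intro p hp
  rw [Ideal.map] at hp
  induction hp using Submodule.span_induction with
  | mem x hx =>
    obtain ⟨a, ha, rfl⟩ := hx
    intro d
    rw [BASE_comp_map]
    exact Ideal.mem_map_of_mem _ (hI a ha d)
  | zero => intro d; simp
  | add x y _ _ hx hy => intro d; rw [map_add]; exact Ideal.add_mem _ (hx d) (hy d)
  | smul c x _ hx => intro d; rw [smul_eq_mul]; exact BASE_mul L _ c x hx d

/-- apply a functional to the coefficients -/
noncomputable def BASE_phi (l : L →ₗ[K] K) (p : MvPolynomial (Fin n) L) : MvPolynomial (Fin n) K :=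
  ∑ s ∈ p.support, monomial s (l (coeff s p))

theorem BASE_phi_coeff (l : L →ₗ[K] K) (p : MvPolynomial (Fin n) L) (s : Fin n →₀ ℕ) :
    coeff s (BASE_phi L l p) = l (coeff s p) := by
  classical
  rw [BASE_phi, coeff_sum]
  simp only [coeff_monomial]
  rw [Finset.sum_ite_eq']
  split_ifs with h
  · rfl
  · rw [notMem_support_iff.1 h, map_zero]

theorem BASE_phi_add (l : L →ₗ[K] K) (p q : MvPolynomial (Fin n) L) :
    BASE_phi L l (p + q) = BASE_phi L l p + BASE_phi L l q := by
  ext s
  simp only [BASE_phi_coeff, coeff_add, map_add]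

theorem BASE_phi_mul (l : L →ₗ[K] K) (a : MvPolynomial (Fin n) K) (p : MvPolynomial (Fin n) L) :
    BASE_phi L l (MvPolynomial.map (algebraMap K L) a * p) = a * BASE_phi L l p := by
  classical
  ext s
  rw [BASE_phi_coeff, coeff_mul, coeff_mul, map_sum]
  refine Finset.sum_congr rfl fun x _ => ?_
  rw [BASE_phi_coeff, coeff_map, ← Algebra.smul_def, map_smul, smul_eq_mul]

theorem BASE_phi_mem (l : L →ₗ[K] K) {I : Ideal (MvPolynomial (Fin n) K)}
    {p : MvPolynomial (Fin n) L}
    (hp : p ∈ I.map (MvPolynomial.map (algebraMap K L) : MvPolynomial (Fin n) K →+* MvPolynomial (Fin n) L)) :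
    BASE_phi L l p ∈ I := by
  rw [Ideal.map] at hp
  have key : ∀ x ∈ Ideal.span ((MvPolynomial.map (algebraMap K L) : MvPolynomial (Fin n) K →+* MvPolynomial (Fin n) L) '' (I : Set (MvPolynomial (Fin n) K))),
      ∀ c : MvPolynomial (Fin n) L, BASE_phi L l (c * x) ∈ I := by
    intro x hx
    induction hx using Submodule.span_induction with
    | mem x hx =>
      obtain ⟨a, ha, rfl⟩ := hx
      intro c
      rw [mul_comm, BASE_phi_mul]
      exact I.mul_mem_right _ ha
    | zero =>
      intro c
      have : BASE_phi L l (c * 0) = 0 := by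
        ext s; simp [BASE_phi_coeff]
      rw [this]; exact I.zero_mem
    | add x y _ _ hx hy =>
      intro c
      rw [mul_add, BASE_phi_add]
      exact I.add_mem (hx c) (hy c)
    | smul r x _ hx =>
      intro c
      rw [smul_eq_mul, ← mul_assoc]
      exact hx _
  have := key p hp 1
  rwa [one_mul] at this

theorem BASE_smul {F : Type*} [Field F] (J : Ideal (MvPolynomial (Fin n) F)) (r : F)
    (x : MvPolynomial (Fin n) F) :
    r • Ideal.Quotient.mk J x = Ideal.Quotient.mk J (C r * x) := by
  rw [← smul_eq_C_mul]; rfl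

theorem HF_baseChange {I : Ideal (MvPolynomial (Fin n) K)} (hI : IsHomog I) (d : ℕ) :
    HF (I.map (MvPolynomial.map (algebraMap K L) : MvPolynomial (Fin n) K →+* MvPolynomial (Fin n) L)) d = HF I d := by
  classical
  set φ : MvPolynomial (Fin n) K →+* MvPolynomial (Fin n) L := MvPolynomial.map (algebraMap K L) with hφ
  set J := I.map φ with hJ
  set W := (homogeneousSubmodule (Fin n) K d).map (Ideal.Quotient.mkₐ K I).toLinearMap with hW
  set W' := (homogeneousSubmodule (Fin n) L d).map (Ideal.Quotient.mkₐ L J).toLinearMap with hW'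
  have : Module.Finite K W := Module.Finite.iff_fg.2 ((homogeneousSubmodule_fg (Fin n) K d).map _)
  have hb0 : ∀ j : Fin (Module.finrank K W), ∃ b ∈ homogeneousSubmodule (Fin n) K d,
      Ideal.Quotient.mk I b = ((Module.finBasis K W j : W) : MvPolynomial (Fin n) K ⧸ I) := by
    intro j
    obtain ⟨b, hb, hb'⟩ := (Module.finBasis K W j : W).2
    exact ⟨b, hb, hb'⟩
  choose b hb hb' using hb0
  have hli : LinearIndependent L (fun j => Ideal.Quotient.mk J (φ (b j))) := by
    rw [Fintype.linearIndependent_iff]
    intro g hg j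
    have h1 : (∑ i, C (g i) * φ (b i)) ∈ J := by
      rw [← Ideal.Quotient.eq_zero_iff_mem, map_sum, ← hg]
      refine Finset.sum_congr rfl fun i _ => ?_
      rw [BASE_smul]
    refine (Module.forall_dual_apply_eq_zero_iff K (g j)).1 fun l => ?_
    have h2 : BASE_phi L l (∑ i, C (g i) * φ (b i)) = ∑ i, C (l (g i)) * b i := by
      ext s
      rw [BASE_phi_coeff, coeff_sum, coeff_sum, map_sum]
      refine Finset.sum_congr rfl fun i _ => ?_
      rw [coeff_C_mul, coeff_C_mul, hφ, coeff_map, mul_comm, ← Algebra.smul_def, map_smul,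
        smul_eq_mul, mul_comm]
    have h3 : (∑ i, C (l (g i)) * b i) ∈ I := by
      rw [← h2]; exact BASE_phi_mem L l h1
    have h4 : ∑ i, l (g i) • Module.finBasis K W i = 0 := by
      apply Subtype.ext
      rw [Submodule.coe_zero, ← Ideal.Quotient.eq_zero_iff_mem.2 h3, map_sum, Submodule.coe_sum]
      refine Finset.sum_congr rfl fun i _ => ?_
      rw [Submodule.coe_smul, ← hb', BASE_smul]
    exact (Fintype.linearIndependent_iff.1 (Module.finBasis K W).linearIndependent) _ h4 j
  have hspan : W' = Submodule.span L (Set.range fun j => Ideal.Quotient.mk J (φ (b j))) := by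
    apply le_antisymm
    · rintro _ ⟨p, hp, rfl⟩
      have hp' : p.IsHomogeneous d := hp
      rw [AlgHom.toLinearMap_apply]
      have h5 : p = ∑ s ∈ p.support, C (coeff s p) * φ (monomial s 1) := by
        conv_lhs => rw [p.as_sum]
        refine Finset.sum_congr rfl fun s _ => ?_
        rw [hφ, map_monomial, map_one, C_mul_monomial, mul_one]
      rw [h5, map_sum]
      refine Submodule.sum_mem _ fun s hs => ?_
      rw [map_mul]
      have h6 : (monomial s (1 : K)) ∈ homogeneousSubmodule (Fin n) K d := by
        rw [mem_homogeneousSubmodule]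
        refine isHomogeneous_monomial _ ?_
        have := hp' (mem_support_iff.1 hs)
        rwa [Finsupp.degree_eq_weight_one]
      have h7 : Ideal.Quotient.mk I (monomial s (1 : K)) ∈ W := ⟨_, h6, rfl⟩
      obtain ⟨c, hc⟩ : ∃ c : Fin (Module.finrank K W) → K,
          Ideal.Quotient.mk I (monomial s (1 : K)) = ∑ j, c j • Ideal.Quotient.mk I (b j) := by
        refine ⟨fun j => (Module.finBasis K W).repr ⟨_, h7⟩ j, ?_⟩
        have := congrArg Subtype.val ((Module.finBasis K W).sum_repr ⟨_, h7⟩)
        rw [Submodule.coe_sum] at this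
        refine this.symm.trans ?_
        refine Finset.sum_congr rfl fun j _ => ?_
        rw [Submodule.coe_smul, hb']
      have h8 : monomial s (1 : K) - ∑ j, C (c j) * b j ∈ I := by
        rw [← Ideal.Quotient.eq_zero_iff_mem, map_sub, hc, map_sum, sub_eq_zero]
        refine Finset.sum_congr rfl fun j _ => ?_
        rw [BASE_smul]
      have h9 : φ (monomial s (1 : K)) - ∑ j, C (algebraMap K L (c j)) * φ (b j) ∈ J := by
        have := Ideal.mem_map_of_mem φ h8
        rw [map_sub, map_sum] at this
        simpa only [map_mul, hφ, map_C] using this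
      have h10 : Ideal.Quotient.mkₐ L J (φ (monomial s (1 : K))) =
          ∑ j, (algebraMap K L (c j)) • Ideal.Quotient.mk J (φ (b j)) := by
        rw [Ideal.Quotient.mkₐ_eq_mk]
        rw [← sub_eq_zero, ← Ideal.Quotient.eq_zero_iff_mem.2 h9, map_sub, map_sum]
        congr 1
        refine Finset.sum_congr rfl fun j _ => ?_
        rw [BASE_smul]
      rw [h10, Ideal.Quotient.mkₐ_eq_mk]
      have h11 : (Ideal.Quotient.mk J) (C (coeff s p)) *
          ∑ j, (algebraMap K L (c j)) • (Ideal.Quotient.mk J) (φ (b j)) =
          (coeff s p) • ∑ j, (algebraMap K L (c j)) • (Ideal.Quotient.mk J) (φ (b j)) := by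
        have h12 : ∑ j, (algebraMap K L) (c j) • (Ideal.Quotient.mk J) (φ (b j)) =
            Ideal.Quotient.mk J (∑ j, C ((algebraMap K L) (c j)) * φ (b j)) := by
          rw [map_sum]
          exact Finset.sum_congr rfl fun j _ => by rw [BASE_smul]
        rw [h12, BASE_smul, map_mul]
      rw [h11]
      refine Submodule.smul_mem _ _ (Submodule.sum_mem _ fun j _ => Submodule.smul_mem _ _
        (Submodule.subset_span ⟨j, rfl⟩))
    · rw [Submodule.span_le]
      rintro _ ⟨j, rfl⟩
      refine ⟨φ (b j), ?_, rfl⟩
      exact IsHomogeneous.map (hb j) _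
  show Module.finrank L W' = Module.finrank K W
  rw [hspan, finrank_span_eq_card hli, Fintype.card_fin]

theorem prim_baseChange {m : ℕ} {f : Fin m → MvPolynomial (Fin n) K} (hp : Prim f) :
    Prim (fun i => MvPolynomial.map (algebraMap K L) (f i)) := by
  classical
  obtain ⟨D, hD⟩ := hp
  refine ⟨D, fun p hp => ?_⟩
  have h5 : p = ∑ s ∈ p.support, C (coeff s p) * (MvPolynomial.map (algebraMap K L) (monomial s (1 : K))) := by
    conv_lhs => rw [p.as_sum]
    refine Finset.sum_congr rfl fun s _ => ?_
    rw [map_monomial, map_one, C_mul_monomial, mul_one]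
  rw [h5]
  refine Ideal.sum_mem _ fun s hs => Ideal.mul_mem_left _ _ ?_
  have h6 : (monomial s (1 : K)).IsHomogeneous D := by
    refine isHomogeneous_monomial _ ?_
    have := hp (mem_support_iff.1 hs)
    rwa [Finsupp.degree_eq_weight_one]
  have h7 := Ideal.mem_map_of_mem (MvPolynomial.map (algebraMap K L) : MvPolynomial (Fin n) K →+* MvPolynomial (Fin n) L) (hD _ h6)
  rw [Ideal.map_span, ← Set.range_comp] at h7
  exact h7

end Vale.Agent.P200E
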