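import Vale.Agent.P200E.Defs

/-! Module BIL: over an algebraically closed field, r <= 2(n-1) bilinear forms on K^n x K^n have a common zero (u,v) with u, v nonzero
(the Segre variety P^(n-1) x P^(n-1) has dimension 2(n-1)).
Proof: R = K[u_i v_j] = the weight zero part of K[u,v] (weights +1 on the u's, -1 on the v's) is a direct summand of K[u,v], hence Noetherian;
the irrelevant ideal of R has height >= 2n-1 (explicit chain of primes), and if there is no common zero it is minimal over the ideal
generated by the r forms (Nullstellensatz), which contradicts Krull's height theorem. -/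

namespace Vale.Agent.P200E

open MvPolynomial

namespace BIL

/-- weights: +1 on the u's, -1 on the v's. -/
def wt (n : ℕ) : Fin n ⊕ Fin n → ℤ := Sum.elim (fun _ => 1) (fun _ => -1)

/-- the weight zero part of K[u,v]. -/
def R (K : Type*) [Field K] (n : ℕ) : Subalgebra K (MvPolynomial (Fin n ⊕ Fin n) K) where
  carrier := {p | IsWeightedHomogeneous (wt n) p 0}
  mul_mem' := by
    intro a b ha hb
    have := IsWeightedHomogeneous.mul ha hb
    simpa using this
  add_mem' := by
    intro a b ha hb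
    exact IsWeightedHomogeneous.add ha hb
  algebraMap_mem' := fun r => isWeightedHomogeneous_C _ r

section

variable {K : Type*} [Field K] {n : ℕ}

theorem mem_R {p : MvPolynomial (Fin n ⊕ Fin n) K} : p ∈ R K n ↔ IsWeightedHomogeneous (wt n) p 0 := Iff.rfl

attribute [local instance] MvPolynomial.weightedGradedAlgebra in
theorem pi_mul (s f : MvPolynomial (Fin n ⊕ Fin n) K) (hf : f ∈ R K n) :
    weightedHomogeneousComponent (wt n) 0 (s * f) = weightedHomogeneousComponent (wt n) 0 s * f := by
  have h := DirectSum.coe_decompose_mul_of_right_mem_zero (𝒜 := weightedHomogeneousSubmodule K (wt n))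
    (a := s) (b := f) (i := 0) hf
  have e : ∀ φ : MvPolynomial (Fin n ⊕ Fin n) K,
      ((DirectSum.decompose (weightedHomogeneousSubmodule K (wt n)) φ 0 : weightedHomogeneousSubmodule K (wt n) 0) :
        MvPolynomial (Fin n ⊕ Fin n) K) = weightedHomogeneousComponent (wt n) 0 φ :=
    fun φ => weightedDecomposition.decompose'_apply K (wt n) φ 0
  rw [e, e] at h
  exact h

theorem pi_mem (s : MvPolynomial (Fin n ⊕ Fin n) K) : weightedHomogeneousComponent (wt n) 0 s ∈ R K n :=
  weightedHomogeneousComponent_mem (wt n) s 0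

theorem pi_self {f : MvPolynomial (Fin n ⊕ Fin n) K} (hf : f ∈ R K n) :
    weightedHomogeneousComponent (wt n) 0 f = f :=
  IsWeightedHomogeneous.weightedHomogeneousComponent_same hf

/-- contraction of the extension: I S ∩ R = I. -/
theorem comap_map (I : Ideal (R K n)) {x : R K n}
    (hx : (x : MvPolynomial (Fin n ⊕ Fin n) K) ∈ I.map (algebraMap (R K n) (MvPolynomial (Fin n ⊕ Fin n) K))) : x ∈ I := by
  have key : ∀ y ∈ I.map (algebraMap (R K n) (MvPolynomial (Fin n ⊕ Fin n) K)),
      ∀ s : MvPolynomial (Fin n ⊕ Fin n) K,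
        (⟨weightedHomogeneousComponent (wt n) 0 (s * y), pi_mem _⟩ : R K n) ∈ I := by
    intro y hy
    refine Submodule.span_induction (p := fun y _ => ∀ s : MvPolynomial (Fin n ⊕ Fin n) K,
        (⟨weightedHomogeneousComponent (wt n) 0 (s * y), pi_mem _⟩ : R K n) ∈ I) ?_ ?_ ?_ ?_ hy
    · rintro _ ⟨i, hi, rfl⟩ s
      have : (⟨weightedHomogeneousComponent (wt n) 0 (s * (algebraMap (R K n) (MvPolynomial (Fin n ⊕ Fin n) K) i)),
          pi_mem _⟩ : R K n) = ⟨weightedHomogeneousComponent (wt n) 0 s, pi_mem _⟩ * i := by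
        apply Subtype.ext
        exact pi_mul s _ i.2
      rw [this]
      exact I.mul_mem_left _ hi
    · intro s
      have : (⟨weightedHomogeneousComponent (wt n) 0 (s * 0), pi_mem _⟩ : R K n) = 0 := by
        apply Subtype.ext
        simp
      rw [this]
      exact I.zero_mem
    · intro a b _ _ ha hb s
      have : (⟨weightedHomogeneousComponent (wt n) 0 (s * (a + b)), pi_mem _⟩ : R K n) =
          ⟨weightedHomogeneousComponent (wt n) 0 (s * a), pi_mem _⟩ +
          ⟨weightedHomogeneousComponent (wt n) 0 (s * b), pi_mem _⟩ := by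
        apply Subtype.ext
        simp [mul_add]
      rw [this]
      exact I.add_mem (ha s) (hb s)
    · intro t a _ ha s
      have : (⟨weightedHomogeneousComponent (wt n) 0 (s * (t • a)), pi_mem _⟩ : R K n) =
          ⟨weightedHomogeneousComponent (wt n) 0 ((s * t) * a), pi_mem _⟩ := by
        apply Subtype.ext
        simp [mul_assoc]
      rw [this]
      exact ha _
  have h := key _ hx 1
  have : (⟨weightedHomogeneousComponent (wt n) 0 (1 * (x : MvPolynomial (Fin n ⊕ Fin n) K)), pi_mem _⟩ : R K n) = x := by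
    apply Subtype.ext
    simp [pi_self x.2]
  rwa [this] at h

instance noeth : IsNoetherianRing (R K n) := by
  rw [isNoetherianRing_iff, isNoetherian_iff']
  have hS : WellFoundedGT (Ideal (MvPolynomial (Fin n ⊕ Fin n) K)) := by
    rw [← isNoetherian_iff', ← isNoetherianRing_iff]
    infer_instance
  have hm : StrictMono (fun I : Ideal (R K n) => I.map (algebraMap (R K n) (MvPolynomial (Fin n ⊕ Fin n) K))) := by
    intro I J hIJ
    refine lt_of_le_of_ne (Ideal.map_mono hIJ.le) ?_
    intro h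
    apply not_le_of_gt hIJ
    intro x hx
    apply comap_map
    have h' : I.map (algebraMap (R K n) (MvPolynomial (Fin n ⊕ Fin n) K)) =
      J.map (algebraMap (R K n) (MvPolynomial (Fin n ⊕ Fin n) K)) := h
    rw [h']
    exact Ideal.mem_map_of_mem _ hx
  exact hm.wellFoundedGT

/-- the sets of variables killed by the chain of primes. -/
def T (n k : ℕ) : Fin n ⊕ Fin n → Prop :=
  Sum.elim (fun i => i.1 < k ∧ i.1 + 1 < n) (fun j => j.1 + (n - 1) < k)

open Classical in
/-- substitution X_s = 0 for s in T. -/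
noncomputable def ph (K : Type*) [Field K] (n k : ℕ) :
    MvPolynomial (Fin n ⊕ Fin n) K →ₐ[K] MvPolynomial (Fin n ⊕ Fin n) K :=
  aeval (fun s => if T n k s then 0 else X s)

theorem ph_pos {k : ℕ} {s : Fin n ⊕ Fin n} (h : T n k s) : ph K n k (X s) = 0 := by
  simp [ph, h]

theorem ph_neg {k : ℕ} {s : Fin n ⊕ Fin n} (h : ¬ T n k s) : ph K n k (X s) = X s := by
  simp [ph, h]

theorem T_mono {k k' : ℕ} (h : k ≤ k') {s : Fin n ⊕ Fin n} (hs : T n k s) : T n k' s := by
  rcases s with i | j
  · exact ⟨lt_of_lt_of_le hs.1 h, hs.2⟩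
  · exact lt_of_lt_of_le hs h

theorem ph_ph {k k' : ℕ} (h : k ≤ k') (x : MvPolynomial (Fin n ⊕ Fin n) K) :
    ph K n k' (ph K n k x) = ph K n k' x := by
  have : (ph K n k').comp (ph K n k) = ph K n k' := by
    apply MvPolynomial.algHom_ext
    intro s
    rw [AlgHom.comp_apply]
    by_cases hs : T n k s
    · rw [ph_pos hs, ph_pos (T_mono h hs), map_zero]
    · rw [ph_neg hs]
  rw [← AlgHom.comp_apply, this]

theorem cc_ph (k : ℕ) (x : MvPolynomial (Fin n ⊕ Fin n) K) :
    constantCoeff (ph K n k x) = constantCoeff x := by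
  have : (constantCoeff (R := K) (σ := Fin n ⊕ Fin n)).comp (ph K n k).toRingHom = constantCoeff := by
    apply MvPolynomial.ringHom_ext
    · intro a
      simp [ph]
    · intro s
      by_cases hs : T n k s
      · have := ph_pos (K := K) hs
        simp [this]
      · have := ph_neg (K := K) hs
        simp [this]
  have h2 := congrArg (fun f => f x) this
  simpa using h2

/-- the chain of primes of R. -/
noncomputable def P (K : Type*) [Field K] (n k : ℕ) : Ideal (R K n) :=
  RingHom.ker ((ph K n k).toRingHom.comp (R K n).val.toRingHom)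

theorem mem_P {k : ℕ} {x : R K n} : x ∈ P K n k ↔ ph K n k (x : MvPolynomial (Fin n ⊕ Fin n) K) = 0 := by
  rw [P, RingHom.mem_ker]
  rfl

instance P_prime (k : ℕ) : (P K n k).IsPrime := by
  unfold P
  exact RingHom.ker_isPrime _

theorem P_mono {k k' : ℕ} (h : k ≤ k') : P K n k ≤ P K n k' := by
  intro x hx
  rw [mem_P] at hx ⊢
  rw [← ph_ph h, hx, map_zero]

theorem XX_mem (i j : Fin n) : (X (Sum.inl i) * X (Sum.inr j) : MvPolynomial (Fin n ⊕ Fin n) K) ∈ R K n := by
  rw [mem_R]
  have h := (isWeightedHomogeneous_X K (wt n) (Sum.inl i)).mul (isWeightedHomogeneous_X K (wt n) (Sum.inr j))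
  simpa [wt] using h

theorem P_lt {k : ℕ} (hk : k + 1 ≤ 2 * n - 1) : P K n k < P K n (k + 1) := by
  refine lt_of_le_of_ne (P_mono (Nat.le_succ k)) ?_
  intro h
  have key : ∃ i j : Fin n, ¬ T n k (Sum.inl i) ∧ ¬ T n k (Sum.inr j) ∧
      (T n (k + 1) (Sum.inl i) ∨ T n (k + 1) (Sum.inr j)) := by
    by_cases hk' : k < n - 1
    · refine ⟨⟨k, by omega⟩, ⟨n - 1, by omega⟩, ?_, ?_, Or.inl ?_⟩
      · simp [T]
      · simp only [T, Sum.elim_inr]
        omega
      · simp only [T, Sum.elim_inl]
        omega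
    · refine ⟨⟨n - 1, by omega⟩, ⟨k - (n - 1), by omega⟩, ?_, ?_, Or.inr ?_⟩
      · simp only [T, Sum.elim_inl]
        omega
      · simp only [T, Sum.elim_inr]
        omega
      · simp only [T, Sum.elim_inr]
        omega
  obtain ⟨i, j, h1, h2, h3⟩ := key
  have hx : (⟨_, XX_mem i j⟩ : R K n) ∈ P K n (k + 1) := by
    rw [mem_P]
    simp only [map_mul]
    rcases h3 with h3 | h3
    · rw [ph_pos h3, zero_mul]
    · rw [ph_pos h3, mul_zero]
  rw [← h, mem_P] at hx
  simp only [map_mul] at hx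
  rw [ph_neg h1, ph_neg h2] at hx
  exact mul_ne_zero (X_ne_zero _) (X_ne_zero _) hx

theorem height_P (k : ℕ) (hk : k ≤ 2 * n - 1) : (k : ℕ∞) ≤ (P K n k).height := by
  induction k with
  | zero => simp
  | succ k ih =>
    have h1 := ih (by omega)
    have h2 := Ideal.height_add_one_le_of_lt_of_isPrime (P_lt (K := K) hk)
    push_cast
    exact le_trans (by gcongr) h2

theorem weight_sum (d : (Fin n ⊕ Fin n) →₀ ℕ) : Finsupp.weight (wt n) d =
    ∑ i, (d (Sum.inl i) : ℤ) - ∑ j, (d (Sum.inr j) : ℤ) := by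
  rw [Finsupp.weight_apply, Finsupp.sum_fintype _ _ (by simp), Fintype.sum_sum_type]
  simp [wt, sub_eq_add_neg]

theorem eval_zero {x : MvPolynomial (Fin n ⊕ Fin n) K} (hx : x ∈ R K n) {y : Fin n ⊕ Fin n → K}
    (hy : (∀ i, y (Sum.inl i) = 0) ∨ (∀ j, y (Sum.inr j) = 0)) : aeval y x = constantCoeff x := by
  rw [mem_R] at hx
  rw [aeval_def, eval₂_eq', constantCoeff_eq]
  have hz : ∀ d ∈ x.support, d ≠ 0 →
      (algebraMap K K) (coeff d x) * ∏ i : Fin n ⊕ Fin n, y i ^ d i = 0 := by
    intro d hd hd0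
    have hw : Finsupp.weight (wt n) d = 0 := hx (mem_support_iff.mp hd)
    rw [weight_sum, sub_eq_zero] at hw
    have hex : (∃ i, d (Sum.inl i) ≠ 0) ∧ (∃ j, d (Sum.inr j) ≠ 0) := by
      have hw' : ∑ i, d (Sum.inl i) = ∑ j, d (Sum.inr j) := by exact_mod_cast hw
      constructor
      · by_contra hcon
        push Not at hcon
        have h0 : ∑ j, d (Sum.inr j) = 0 := by
          rw [← hw']
          exact Finset.sum_eq_zero (fun i _ => hcon i)
        apply hd0
        ext s
        rcases s with i | j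
        · simpa using hcon i
        · have := (Finset.sum_eq_zero_iff.mp h0) j (Finset.mem_univ j)
          simpa using this
      · by_contra hcon
        push Not at hcon
        have h0 : ∑ j, d (Sum.inl j) = 0 := by
          rw [hw']
          exact Finset.sum_eq_zero (fun i _ => hcon i)
        apply hd0
        ext s
        rcases s with i | j
        · have := (Finset.sum_eq_zero_iff.mp h0) i (Finset.mem_univ i)
          simpa using this
        · simpa using hcon j
    have hp : ∏ i : Fin n ⊕ Fin n, y i ^ d i = 0 := by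
      rcases hy with hy | hy
      · obtain ⟨i, hi⟩ := hex.1
        apply Finset.prod_eq_zero (Finset.mem_univ (Sum.inl i))
        rw [hy i, zero_pow hi]
      · obtain ⟨j, hj⟩ := hex.2
        apply Finset.prod_eq_zero (Finset.mem_univ (Sum.inr j))
        rw [hy j, zero_pow hj]
    rw [hp, mul_zero]
  by_cases h0 : (0 : (Fin n ⊕ Fin n) →₀ ℕ) ∈ x.support
  · rw [Finset.sum_eq_single_of_mem 0 h0 (fun d hd hd0 => hz d hd hd0)]
    simp
  · rw [Finset.sum_eq_zero (fun d hd => hz d hd (fun h => h0 (h ▸ hd)))]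
    rw [notMem_support_iff.mp h0]

end

end BIL

theorem bil {K : Type*} [Field K] [IsAlgClosed K] (n r : ℕ) (hn : 1 ≤ n) (hr : r ≤ 2 * (n - 1))
    (B : Fin r → (Fin n → K) →ₗ[K] (Fin n → K) →ₗ[K] K) :
    ∃ u v : Fin n → K, u ≠ 0 ∧ v ≠ 0 ∧ ∀ i, B i u v = 0 := by
  classical
  by_contra hcon
  push Not at hcon
  let b : Fin r → MvPolynomial (Fin n ⊕ Fin n) K := fun k =>
    ∑ i, ∑ j, C (B k (Pi.single i 1) (Pi.single j 1)) * (X (Sum.inl i) * X (Sum.inr j))
  have hb : ∀ k, b k ∈ BIL.R K n := by
    intro k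
    refine Subalgebra.sum_mem _ (fun i _ => Subalgebra.sum_mem _ (fun j _ => ?_))
    refine Subalgebra.mul_mem _ ?_ (BIL.XX_mem i j)
    exact (BIL.R K n).algebraMap_mem _
  have hev : ∀ k (y : Fin n ⊕ Fin n → K), aeval y (b k) = B k (fun i => y (Sum.inl i)) (fun j => y (Sum.inr j)) := by
    intro k y
    conv_rhs => rw [← Matrix.toLinearMap₂'_toMatrix' (R := K) (B k)]
    rw [Matrix.toLinearMap₂'_apply]
    simp only [b, map_sum, map_mul, aeval_X, LinearMap.toMatrix₂'_apply, smul_eq_mul]
    refine Finset.sum_congr rfl (fun i _ => Finset.sum_congr rfl (fun j _ => ?_))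
    rw [← algebraMap_eq, AlgHom.commutes]
    simp only [Algebra.algebraMap_self, RingHom.id_apply]
    ring
  let J : Ideal (BIL.R K n) := Ideal.span (Set.range (fun k => (⟨b k, hb k⟩ : BIL.R K n)))
  have hJ : J ≤ BIL.P K n (2 * n - 1) := by
    rw [Ideal.span_le]
    rintro _ ⟨k, rfl⟩
    show (⟨b k, hb k⟩ : BIL.R K n) ∈ BIL.P K n (2 * n - 1)
    rw [BIL.mem_P]
    simp only [b, map_sum, map_mul]
    refine Finset.sum_eq_zero (fun i _ => Finset.sum_eq_zero (fun j _ => ?_))
    have hj : BIL.T n (2 * n - 1) (Sum.inr j) := by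
      simp only [BIL.T, Sum.elim_inr]
      have := j.2
      omega
    rw [BIL.ph_pos hj, mul_zero, mul_zero]
  have hmin : BIL.P K n (2 * n - 1) ∈ J.minimalPrimes := by
    refine ⟨⟨inferInstance, hJ⟩, ?_⟩
    rintro Q ⟨hQ, hJQ⟩ _ x hx
    have hcc : constantCoeff (x : MvPolynomial (Fin n ⊕ Fin n) K) = 0 := by
      rw [← BIL.cc_ph (2 * n - 1), BIL.mem_P.mp hx, map_zero]
    have hv : (x : MvPolynomial (Fin n ⊕ Fin n) K) ∈
        vanishingIdeal K (zeroLocus K (J.map (algebraMap (BIL.R K n) (MvPolynomial (Fin n ⊕ Fin n) K)))) := by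
      rw [mem_vanishingIdeal_iff]
      intro y hy
      rw [mem_zeroLocus_iff] at hy
      rw [BIL.eval_zero x.2, hcc]
      by_contra hne
      push Not at hne
      obtain ⟨⟨i, hi⟩, ⟨j, hj⟩⟩ := hne
      obtain ⟨k, hk⟩ := hcon (fun i => y (Sum.inl i)) (fun j => y (Sum.inr j))
        (fun h => hi (congrFun h i)) (fun h => hj (congrFun h j))
      apply hk
      rw [← hev]
      apply hy
      have : (⟨b k, hb k⟩ : BIL.R K n) ∈ J := Ideal.subset_span ⟨k, rfl⟩
      exact Ideal.mem_map_of_mem (algebraMap (BIL.R K n) (MvPolynomial (Fin n ⊕ Fin n) K)) this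
    rw [vanishingIdeal_zeroLocus_eq_radical, Ideal.mem_radical_iff] at hv
    obtain ⟨N, hN⟩ := hv
    have hN' : x ^ N ∈ J := BIL.comap_map J (by simpa using hN)
    exact hQ.mem_of_pow_mem N (hJQ hN')
  have h1 := Ideal.height_le_card_of_mem_minimalPrimes_span (Set.finite_range _) hmin
  have h2 := BIL.height_P (K := K) (n := n) (2 * n - 1) le_rfl
  have h3 : (Set.range (fun k => (⟨b k, hb k⟩ : BIL.R K n))).ncard ≤ r := by
    have := Set.ncard_image_le (f := fun k => (⟨b k, hb k⟩ : BIL.R K n)) (s := (Set.univ : Set (Fin r))) Set.finite_univ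
    rw [Set.image_univ, Set.ncard_univ, Nat.card_eq_fintype_card, Fintype.card_fin] at this
    exact this
  have h4 : ((2 * n - 1 : ℕ) : ℕ∞) ≤ (r : ℕ∞) := le_trans h2 (le_trans h1 (by exact_mod_cast h3))
  have h5 : 2 * n - 1 ≤ r := by exact_mod_cast h4
  omega

end Vale.Agent.P200E
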