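import Vale.Agent.P200E.KK

/-! Module CPX. From growth in every degree to a simplicial complex: take the initial segments D d of size h d (kk_initSeg);
by Finset.kruskal_katona the shadow of D (d+1) has at most h d elements; it is an initial segment (IsInitSeg.shadow), so nested in D d. -/

namespace Vale.Agent.P200E

open Finset

theorem exists_complex (n : ℕ) (h : ℕ → ℕ) (hG : ∀ d, G n d (h d) (h (d + 1))) :
    ∃ D : ℕ → Finset (Finset (Fin n)), (∀ d, ((D d : Finset (Finset (Fin n))) : Set (Finset (Fin n))).Sized d) ∧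
      (∀ d, (D d).card = h d) ∧ (∀ d, (D (d + 1)).shadow ⊆ D d) := by
  choose D hD hc using fun d => kk_initSeg n d (h d) (hG d).1
  refine ⟨D, fun d => (hD d).1, hc, fun d => ?_⟩
  obtain ⟨F, hF, hFc, hFs⟩ := (hG d).2
  have h1 := Finset.kruskal_katona hF (by rw [hc (d + 1), hFc] : (D (d + 1)).card ≤ F.card)
    (hD (d + 1))
  have h2 := (hD (d + 1)).shadow
  rw [Nat.add_sub_cancel] at h2
  rcases h2.total (hD d) with h3 | h3
  · exact h3
  · have h4 : (D (d + 1)).shadow.card ≤ (D d).card := by
      rw [hc d]
      exact h1.trans hFs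
    exact (Finset.eq_of_subset_of_card_le h3 h4).symm.subset

end Vale.Agent.P200E
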