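import Mathlib

/-! P200 (Eisenbud-Green-Harris for quadrics), definitions.  S_n = MvPolynomial (Fin n) K. -/

namespace Vale.Agent.P200E

open MvPolynomial

/-- Hilbert function of S/I: dimension of the image of the degree d forms in S/I. -/
noncomputable def HF {K : Type*} [Field K] {n : ℕ} (I : Ideal (MvPolynomial (Fin n) K)) (d : ℕ) : ℕ :=
  Module.finrank K ((homogeneousSubmodule (Fin n) K d).map (Ideal.Quotient.mkₐ K I).toLinearMap)

/-- I is a homogeneous ideal: it contains the homogeneous components of its elements. -/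
def IsHomog {K : Type*} [Field K] {n : ℕ} (I : Ideal (MvPolynomial (Fin n) K)) : Prop :=
  ∀ p ∈ I, ∀ d : ℕ, homogeneousComponent d p ∈ I

/-- f_0, ..., f_(n-1) is a regular sequence: multiplication by f_k is injective on S/(f_j : j < k). -/
def IsRegSeq {K : Type*} [Field K] {n : ℕ} (f : Fin n → MvPolynomial (Fin n) K) : Prop :=
  ∀ k p, f k * p ∈ Ideal.span (f '' {j | j < k}) → p ∈ Ideal.span (f '' {j | j < k})

/-- p is a product of two linear forms. -/
def Splits2 {K : Type*} [Field K] {n : ℕ} (p : MvPolynomial (Fin n) K) : Prop :=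
  ∃ l l' : MvPolynomial (Fin n) K, l.IsHomogeneous 1 ∧ l'.IsHomogeneous 1 ∧ p = l * l'

/-- J is generated by monomials. -/
def IsMonomialIdeal {K : Type*} [Field K] {n : ℕ} (J : Ideal (MvPolynomial (Fin n) K)) : Prop :=
  ∃ M : Set (Fin n →₀ ℕ), J = Ideal.span ((fun s => monomial s (1 : K)) '' M)

/-- the ideal (f_i : i) contains all forms of some degree D (equivalently S/(f) is finite dimensional). -/
def Prim {K : Type*} [Field K] {n m : ℕ} (f : Fin m → MvPolynomial (Fin n) K) : Prop :=
  ∃ D : ℕ, ∀ p : MvPolynomial (Fin n) K, p.IsHomogeneous D → p ∈ Ideal.span (Set.range f)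

/-- Kruskal-Katona growth: b sets of size d+1 in [n] with at most a subsets of size d in the shadow. -/
def G (n d a b : ℕ) : Prop :=
  a ≤ n.choose d ∧ ∃ F : Finset (Finset (Fin n)),
    (F : Set (Finset (Fin n))).Sized (d + 1) ∧ F.card = b ∧ F.shadow.card ≤ a

/-- the ideal (I : l). -/
def colonI {K : Type*} [Field K] {n : ℕ} (I : Ideal (MvPolynomial (Fin n) K)) (l : MvPolynomial (Fin n) K) :
    Ideal (MvPolynomial (Fin n) K) where
  carrier := {p | l * p ∈ I}
  add_mem' := by
    intro a b ha hb
    simp only [Set.mem_setOf_eq] at *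
    rw [mul_add]
    exact I.add_mem ha hb
  zero_mem' := by simp
  smul_mem' := by
    intro c x hx
    simp only [Set.mem_setOf_eq, smul_eq_mul] at *
    rw [mul_left_comm]
    exact I.mul_mem_left c hx

theorem mem_colonI {K : Type*} [Field K] {n : ℕ} {I : Ideal (MvPolynomial (Fin n) K)} {l p : MvPolynomial (Fin n) K} :
    p ∈ colonI I l ↔ l * p ∈ I := Iff.rfl

/-- linear substitution killing exactly the linear form l: graded surjection S_(n+1) -> S_n with kernel (l), with a graded section. -/
structure Sub {K : Type*} [Field K] {n : ℕ} (l : MvPolynomial (Fin (n + 1)) K) where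
  s : MvPolynomial (Fin (n + 1)) K →ₐ[K] MvPolynomial (Fin n) K
  t : MvPolynomial (Fin n) K →ₐ[K] MvPolynomial (Fin (n + 1)) K
  hs : ∀ p d, p.IsHomogeneous d → (s p).IsHomogeneous d
  ht : ∀ q d, q.IsHomogeneous d → (t q).IsHomogeneous d
  st : ∀ q, s (t q) = q
  ker : ∀ p, s p = 0 ↔ p ∈ Ideal.span {l}

end Vale.Agent.P200E
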