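import Vale.Agent.P200E.Defs

/-! Module FEW: m < n quadrics cannot generate all forms of some degree D in n variables.
Elementary counting: for J_k = (f_0..f_(k-1)) one has dim (S/J_(k+1))_(d+2) >= dim (S/J_k)_(d+2) - dim (S/J_k)_d (the degree d+2 part of
J_(k+1) is the degree d+2 part of J_k plus f_k S_d, and f_k (J_k)_d is in J_k).  Let G_k(d) = sum over i of C(i+k-1,k-1) H_k(d-2i) (k-fold
sum with step 2, H_k = Hilbert function of S/J_k, G_0 = H_0): then G_(k+1)(d) >= G_k(d), so G_m(d) >= H_0(d) = C(d+n-1,n-1).  If all forms of degree D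
are in J_m then H_m(e) = 0 for e >= D, so G_m(d) <= (const) (d+m)^(m-1) for m>=1, contradiction for large d as m < n (m = 0 trivial since n>0).
Alternative: Krull height theorem + dimension of MvPolynomial (Mathlib: ringKrullDim of MvPolynomial; ringKrullDim_quotient..., Ideal.height_le_spanRank...). -/

namespace Vale.Agent.P200E

open MvPolynomial

/-- kill the first `k` variables -/
noncomputable def fewKill (K : Type*) [Field K] (n k : ℕ) :
    MvPolynomial (Fin n) K →ₐ[K] MvPolynomial (Fin n) K :=
  aeval (fun i : Fin n => if i.val < k then 0 else X i)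

instance few_prime (K : Type*) [Field K] (n k : ℕ) : (RingHom.ker (fewKill K n k)).IsPrime :=
  RingHom.ker_isPrime _

theorem few_comp (K : Type*) [Field K] (n k : ℕ) :
    (fewKill K n (k + 1)).comp (fewKill K n k) = fewKill K n (k + 1) := by
  apply MvPolynomial.algHom_ext
  intro i
  simp only [fewKill, AlgHom.comp_apply, aeval_X]
  by_cases h : i.val < k
  · rw [if_pos h, if_pos (by omega), map_zero]
  · rw [if_neg h, aeval_X]

theorem few_lt (K : Type*) [Field K] {n k : ℕ} (hk : k < n) :
    RingHom.ker (fewKill K n k) < RingHom.ker (fewKill K n (k + 1)) := by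
  refine lt_of_le_of_ne ?_ ?_
  · intro p hp
    rw [RingHom.mem_ker] at hp ⊢
    rw [← few_comp, AlgHom.comp_apply, hp, map_zero]
  · intro h
    have h1 : (X ⟨k, hk⟩ : MvPolynomial (Fin n) K) ∈ RingHom.ker (fewKill K n (k + 1)) := by
      rw [RingHom.mem_ker, fewKill, aeval_X, if_pos (by simp)]
    rw [← h, RingHom.mem_ker, fewKill, aeval_X, if_neg (by simp)] at h1
    exact X_ne_zero _ h1

theorem few_height (K : Type*) [Field K] (n : ℕ) : ∀ k, k ≤ n →
    (k : ℕ∞) ≤ (RingHom.ker (fewKill K n k)).height := by
  intro k
  induction k with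
  | zero => intro _; simp
  | succ k ih =>
    intro hk
    have h1 := ih (by omega)
    have h2 := Ideal.height_add_one_le_of_lt_of_isPrime (few_lt K (n := n) (k := k) (by omega))
    refine le_trans ?_ h2
    push_cast
    gcongr

theorem few {K : Type*} [Field K] {n m : ℕ} (h : m < n) (f : Fin m → MvPolynomial (Fin n) K)
    (hf : ∀ i, (f i).IsHomogeneous 2) : ¬ Prim f := by
  rintro ⟨D, hD⟩
  have hX : ∀ i : Fin n, (X i : MvPolynomial (Fin n) K) ∈ RingHom.ker (fewKill K n n) := by
    intro i
    rw [RingHom.mem_ker, fewKill, aeval_X, if_pos i.2]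
  have hle : Ideal.span (Set.range f) ≤ RingHom.ker (fewKill K n n) := by
    rw [Ideal.span_le]
    rintro _ ⟨i, rfl⟩
    have h0 : fewKill K n n = aeval (fun _ : Fin n => (0 : MvPolynomial (Fin n) K)) := by
      apply MvPolynomial.algHom_ext
      intro j
      rw [fewKill, aeval_X, aeval_X, if_pos j.2]
    rw [SetLike.mem_coe, RingHom.mem_ker, h0]
    have h1 : constantCoeff (f i) = 0 := by
      rw [constantCoeff_eq]
      exact (hf i).coeff_eq_zero (by simp)
    have h2 : aeval (fun _ : Fin n => (0 : MvPolynomial (Fin n) K)) (f i) =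
        C (constantCoeff (f i)) := by
      have := MvPolynomial.aeval_zero' (S₁ := MvPolynomial (Fin n) K) (f i)
      rw [this]; rfl
    rw [h2, h1, map_zero]
  have hmin : RingHom.ker (fewKill K n n) ∈ (Ideal.span (Set.range f)).minimalPrimes := by
    refine ⟨⟨few_prime K n n, hle⟩, ?_⟩
    rintro Q ⟨hQ, hfQ⟩ -
    have hXQ : ∀ i : Fin n, (X i : MvPolynomial (Fin n) K) ∈ Q := by
      intro i
      have h1 : (X i : MvPolynomial (Fin n) K) ^ D ∈ Q := by
        refine hfQ (hD _ ?_)
        have := (isHomogeneous_X K i).pow D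
        simpa using this
      exact hQ.mem_of_pow_mem D h1
    intro p hp
    rw [RingHom.mem_ker] at hp
    have h3 : ∀ p : MvPolynomial (Fin n) K, p - fewKill K n n p ∈ Q := by
      intro p
      induction p using MvPolynomial.induction_on with
      | C a => simp [fewKill]
      | add p q hp hq =>
        rw [map_add]
        have := Q.add_mem hp hq
        convert this using 1
        ring
      | mul_X p i hp =>
        rw [map_mul, show fewKill K n n (X i) = 0 from by rw [fewKill, aeval_X, if_pos i.2], mul_zero,
          sub_zero]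
        exact Q.mul_mem_left _ (hXQ i)
    have := h3 p
    rwa [hp, sub_zero] at this
  have h4 := Ideal.height_le_card_of_mem_minimalPrimes_span (Set.finite_range f) hmin
  have h5 := (few_height K n n le_rfl).trans h4
  have h6 : (Set.range f).ncard ≤ m := by
    rw [← Set.image_univ]
    refine (Set.ncard_image_le (Set.finite_univ)).trans ?_
    simp [Set.ncard_univ]
  have h7 : n ≤ (Set.range f).ncard := by exact_mod_cast h5
  omega

end Vale.Agent.P200E
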