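import Vale.Agent.P200E.Defs

/-! Module MONO. Hilbert function of the Stanley-Reisner ideal plus squares.  D d = family of d-sets, closed under shadow.
J = span of all monomials x^s such that s is not the indicator of a set in any D d (that set of exponents is closed under adding exponents,
so a polynomial is in J iff all its exponents are such: MvPolynomial.mem_ideal_span_monomial_image).  The classes of the monomials
x^(indicator of A), A in D d, are a basis of the image of the degree d forms in S/J: they are independent modulo J and all other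
monomials of degree d are in J.  HF J d = finrank of that image = card (D d). -/

namespace Vale.Agent.P200E

open MvPolynomial

/-- indicator exponent -/
private noncomputable def MONO_ind {n : ℕ} (A : Finset (Fin n)) : Fin n →₀ ℕ :=
  Finsupp.indicator A fun _ _ => 1

private theorem MONO_ind_apply {n : ℕ} (A : Finset (Fin n)) (i : Fin n) :
    MONO_ind A i = if i ∈ A then 1 else 0 := by
  unfold MONO_ind
  rw [Finsupp.indicator_apply]
  split_ifs <;> rfl

private theorem MONO_ind_inj {n : ℕ} {A B : Finset (Fin n)} (h : MONO_ind A = MONO_ind B) :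
    A = B := by
  ext i
  have h1 := DFunLike.congr_fun h i
  rw [MONO_ind_apply, MONO_ind_apply] at h1
  by_cases hA : i ∈ A <;> by_cases hB : i ∈ B <;> simp [hA, hB] at h1 ⊢

private theorem MONO_degree {n : ℕ} (A : Finset (Fin n)) : (MONO_ind A).degree = A.card := by
  rw [Finsupp.degree_eq_sum]
  simp [MONO_ind_apply]

/-- subsets of faces are faces -/
private theorem MONO_sub {n : ℕ} {D : ℕ → Finset (Finset (Fin n))}
    (hD : ∀ d, ((D d : Finset (Finset (Fin n))) : Set (Finset (Fin n))).Sized d)
    (hsh : ∀ d, (D (d + 1)).shadow ⊆ D d) (k : ℕ) :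
    ∀ (d : ℕ) (A B : Finset (Fin n)), A ∈ D d → B ⊆ A → (A \ B).card = k → B ∈ D B.card := by
  induction k with
  | zero =>
    intro d A B hA hBA hk
    have h1 : A ⊆ B := Finset.sdiff_eq_empty_iff_subset.1 (Finset.card_eq_zero.1 hk)
    have h2 : B = A := Finset.Subset.antisymm hBA h1
    have h3 : A.card = d := hD d hA
    rw [h2, h3]
    exact hA
  | succ k ih =>
    intro d A B hA hBA hk
    obtain ⟨a, ha⟩ : (A \ B).Nonempty := Finset.card_pos.1 (by omega)
    have haA : a ∈ A := (Finset.mem_sdiff.1 ha).1
    have haB : a ∉ B := (Finset.mem_sdiff.1 ha).2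
    have h3 : A.card = d := hD d hA
    obtain ⟨d', rfl⟩ : ∃ d', d = d' + 1 := by
      refine ⟨d - 1, ?_⟩
      have : 0 < A.card := Finset.card_pos.2 ⟨a, haA⟩
      omega
    have h4 : A.erase a ∈ D d' := hsh d' (Finset.erase_mem_shadow hA haA)
    refine ih d' (A.erase a) B h4 (fun x hx => ?_) ?_
    · exact Finset.mem_erase.2 ⟨fun h => haB (h ▸ hx), hBA hx⟩
    · have h5 : A.erase a \ B = (A \ B).erase a := by
        ext x
        simp only [Finset.mem_sdiff, Finset.mem_erase]
        tauto
      rw [h5, Finset.card_erase_of_mem ha, hk]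
      rfl

/-- the exponents in the ideal -/
private def MONO_M {n : ℕ} (D : ℕ → Finset (Finset (Fin n))) : Set (Fin n →₀ ℕ) :=
  {s | ¬ ∃ d, ∃ A ∈ D d, s = MONO_ind A}

private theorem MONO_up {n : ℕ} {D : ℕ → Finset (Finset (Fin n))}
    (hD : ∀ d, ((D d : Finset (Finset (Fin n))) : Set (Finset (Fin n))).Sized d)
    (hsh : ∀ d, (D (d + 1)).shadow ⊆ D d) {s t : Fin n →₀ ℕ} (hs : s ∈ MONO_M D) (hst : s ≤ t) :
    t ∈ MONO_M D := by
  rintro ⟨d, A, hA, ht⟩
  apply hs
  classical
  set B : Finset (Fin n) := A.filter fun i => s i = 1 with hB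
  have hBA : B ⊆ A := Finset.filter_subset _ _
  refine ⟨B.card, B, MONO_sub hD hsh _ d A B hA hBA rfl, ?_⟩
  ext i
  have h1 := hst i
  rw [ht, MONO_ind_apply] at h1
  rw [MONO_ind_apply]
  by_cases hi : i ∈ A
  · rw [if_pos hi] at h1
    by_cases h2 : s i = 1
    · have hiB : i ∈ B := Finset.mem_filter.2 ⟨hi, h2⟩
      rw [if_pos hiB, h2]
    · have hiB : i ∉ B := fun h => h2 (Finset.mem_filter.1 h).2
      rw [if_neg hiB]
      omega
  · rw [if_neg hi] at h1
    have hiB : i ∉ B := fun h => hi (hBA h)
    rw [if_neg hiB]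
    omega

private theorem MONO_mem (K : Type*) [Field K] {n : ℕ} {D : ℕ → Finset (Finset (Fin n))}
    (hD : ∀ d, ((D d : Finset (Finset (Fin n))) : Set (Finset (Fin n))).Sized d)
    (hsh : ∀ d, (D (d + 1)).shadow ⊆ D d) (p : MvPolynomial (Fin n) K) :
    p ∈ Ideal.span ((fun s => monomial s (1 : K)) '' MONO_M D) ↔ ∀ s ∈ p.support, s ∈ MONO_M D := by
  rw [mem_ideal_span_monomial_image]
  constructor
  · intro h s hs
    obtain ⟨t, ht, hts⟩ := h s hs
    exact MONO_up hD hsh ht hts
  · intro h s hs
    exact ⟨s, h s hs, le_rfl⟩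

private theorem MONO_coeff {K : Type*} [Field K] {n d : ℕ} {D : ℕ → Finset (Finset (Fin n))}
    (c : D d → K) (A : D d) :
    coeff (MONO_ind A.1) (∑ B : D d, c B • (monomial (MONO_ind B.1) (1 : K))) = c A := by
  classical
  rw [coeff_sum, Finset.sum_eq_single A]
  · simp
  · intro B _ hB
    rw [coeff_smul, coeff_monomial, if_neg, smul_zero]
    intro h
    exact hB (Subtype.ext (MONO_ind_inj h))
  · intro h
    exact absurd (Finset.mem_univ A) h

theorem exists_monomialIdeal (K : Type*) [Field K] (n : ℕ) (D : ℕ → Finset (Finset (Fin n)))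
    (hD : ∀ d, ((D d : Finset (Finset (Fin n))) : Set (Finset (Fin n))).Sized d)
    (hsh : ∀ d, (D (d + 1)).shadow ⊆ D d) :
    ∃ J : Ideal (MvPolynomial (Fin n) K), IsMonomialIdeal J ∧ (∀ i, X i ^ 2 ∈ J) ∧
      ∀ d, HF J d = (D d).card := by
  classical
  refine ⟨Ideal.span ((fun s => monomial s (1 : K)) '' MONO_M D), ⟨_, rfl⟩, fun i => ?_,
    fun d => ?_⟩
  · rw [MONO_mem K hD hsh]
    intro s hs
    rw [X_pow_eq_monomial, support_monomial, if_neg one_ne_zero, Finset.mem_singleton] at hs
    rw [hs]
    rintro ⟨d, A, hA, h⟩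
    have h1 := DFunLike.congr_fun h i
    rw [MONO_ind_apply, Finsupp.single_eq_same] at h1
    split_ifs at h1
    all_goals omega
  · set J := Ideal.span ((fun s => monomial s (1 : K)) '' MONO_M D) with hJ
    let N : (D d → K) →ₗ[K] MvPolynomial (Fin n) K :=
      Fintype.linearCombination K fun A : D d => monomial (MONO_ind A.1) (1 : K)
    have hN : ∀ c, N c = ∑ B : D d, c B • (monomial (MONO_ind B.1) (1 : K)) := fun c =>
      Fintype.linearCombination_apply K _ c
    let L : (D d → K) →ₗ[K] (MvPolynomial (Fin n) K ⧸ J) :=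
      (Ideal.Quotient.mkₐ K J).toLinearMap ∘ₗ N
    have hL : ∀ c, L c = Ideal.Quotient.mkₐ K J (N c) := fun c => rfl
    have hinj : Function.Injective L := by
      rw [← LinearMap.ker_eq_bot, LinearMap.ker_eq_bot']
      intro c hc
      rw [hL, Ideal.Quotient.mkₐ_eq_mk, Ideal.Quotient.eq_zero_iff_mem, hJ,
        MONO_mem K hD hsh] at hc
      funext A
      by_contra hne
      have h1 : MONO_ind A.1 ∈ (N c).support := by
        rw [mem_support_iff, hN, MONO_coeff]
        exact hne
      exact hc _ h1 ⟨d, A.1, A.2, rfl⟩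
    have hrange : LinearMap.range L
        = (homogeneousSubmodule (Fin n) K d).map (Ideal.Quotient.mkₐ K J).toLinearMap := by
      apply le_antisymm
      · rintro _ ⟨c, rfl⟩
        refine ⟨N c, ?_, rfl⟩
        rw [hN]
        refine Submodule.sum_mem _ fun B _ => Submodule.smul_mem _ _ ?_
        have h1 : (MONO_ind B.1).degree = d := by
          rw [MONO_degree]
          exact hD d B.2
        exact isHomogeneous_monomial _ h1
      · rintro _ ⟨p, hp, rfl⟩
        have hp' : p.IsHomogeneous d := hp
        rw [AlgHom.toLinearMap_apply, p.as_sum, map_sum]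
        refine Submodule.sum_mem _ fun s hs => ?_
        have e1 : monomial s (coeff s p) = coeff s p • monomial s (1 : K) := by
          rw [smul_monomial, smul_eq_mul, mul_one]
        rw [e1, map_smul]
        refine Submodule.smul_mem _ _ ?_
        by_cases hM : s ∈ MONO_M D
        · have h2 : Ideal.Quotient.mkₐ K J (monomial s (1 : K)) = 0 := by
            rw [Ideal.Quotient.mkₐ_eq_mk, Ideal.Quotient.eq_zero_iff_mem]
            exact Ideal.subset_span ⟨s, hM, rfl⟩
          rw [h2]
          exact Submodule.zero_mem _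
        · have h2 : ∃ d, ∃ A ∈ D d, s = MONO_ind A := not_not.1 hM
          obtain ⟨d', A, hA, rfl⟩ := h2
          have h3 : (MONO_ind A).degree = d := by
            have h4 := hp' (mem_support_iff.1 hs)
            rw [Finsupp.degree_eq_weight_one]
            exact h4
          rw [MONO_degree] at h3
          have h5 : A.card = d' := hD d' hA
          have h6 : d' = d := h5.symm.trans h3
          subst h6
          refine ⟨Pi.single ⟨A, hA⟩ 1, ?_⟩
          rw [hL, hN]
          congr 1
          rw [Finset.sum_eq_single (⟨A, hA⟩ : D d')]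
          · simp
          · intro B _ hB
            rw [Pi.single_eq_of_ne hB, zero_smul]
          · intro h
            exact absurd (Finset.mem_univ _) h
    unfold HF
    rw [← hrange, LinearMap.finrank_range_of_inj hinj, Module.finrank_fintype_fun_eq_card]
    exact Fintype.card_coe (D d)

end Vale.Agent.P200E
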