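import Vale.Agent.P200E.Defs

/-! Module REG: a regular sequence of n quadrics in n variables generates all forms of large degree.
Hint A: Mathlib has ringKrullDim (R / (r)) + 1 <= ringKrullDim R for r a nonzerodivisor (ringKrullDim_quotient_succ_le_of_nonZeroDivisor) and
ringKrullDim (MvPolynomial (Fin n) K) = n; iterate on the quotients S/(f_0..f_(k-1)) (DoubleQuot), so S/(f) has dimension <= 0 (or is trivial), is Noetherian,
so Artinian; the chain m^k + (f), m = (X_i), stabilises: m^k + (f) = m^(k+1) + (f); take components of degree k: forms of degree k are in (f).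
Hint B: Hilbert functions: H_(k+1)(d+2) = H_k(d+2) - H_k(d), H_0(d) = C(d+n-1,n-1), so the generating function of H_n is (1+t)^n. -/

namespace Vale.Agent.P200E

open MvPolynomial

attribute [local instance] MvPolynomial.gradedAlgebra in
theorem REG_homog {K : Type*} [Field K] {n m : ℕ} (f : Fin m → MvPolynomial (Fin n) K)
    (hf : ∀ i, (f i).IsHomogeneous 2) : IsHomog (Ideal.span (Set.range f)) := by
  have h : (Ideal.span (Set.range f)).IsHomogeneous (homogeneousSubmodule (Fin n) K) :=
    Ideal.homogeneous_span (homogeneousSubmodule (Fin n) K) (Set.range f) (by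
      rintro _ ⟨i, rfl⟩
      exact ⟨2, hf i⟩)
  intro p hp d
  exact (mem_iff_homogeneousComponent_mem h p).1 hp d

theorem REG_dim {K : Type*} [Field K] {n : ℕ} (f : Fin n → MvPolynomial (Fin n) K)
    (hr : IsRegSeq f) : ∀ k : ℕ, k ≤ n →
      ringKrullDim (MvPolynomial (Fin n) K ⧸ Ideal.span (f '' {j | (j : ℕ) < k})) + (k : ℕ) ≤ (n : ℕ) := by
  intro k
  induction k with
  | zero =>
    intro _
    rw [Nat.cast_zero, add_zero]
    refine (ringKrullDim_quotient_le _).trans ?_
    rw [MvPolynomial.ringKrullDim_of_isNoetherianRing, ringKrullDim_eq_zero_of_field]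
    simp
  | succ k ih =>
    intro hk
    have h1 := ih (by omega)
    have hset : {j : Fin n | j < (⟨k, hk⟩ : Fin n)} = {j : Fin n | (j : ℕ) < k} := by
      ext j
      exact Fin.lt_def
    have hle : Ideal.span (f '' {j | (j : ℕ) < k}) ≤ Ideal.span (f '' {j | (j : ℕ) < k + 1}) := by
      refine Ideal.span_mono (Set.image_mono ?_)
      intro j hj
      exact Nat.lt_succ_of_lt hj
    have h2 : ringKrullDim (MvPolynomial (Fin n) K ⧸ Ideal.span (f '' {j | (j : ℕ) < k + 1})) + 1
        ≤ ringKrullDim (MvPolynomial (Fin n) K ⧸ Ideal.span (f '' {j | (j : ℕ) < k})) := by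
      refine ringKrullDim_succ_le_of_surjective (Ideal.Quotient.factor hle)
        (Ideal.Quotient.factor_surjective hle) (r := Ideal.Quotient.mk _ (f ⟨k, hk⟩)) ?_ ?_
      · rw [mem_nonZeroDivisors_iff_right]
        intro x hx
        obtain ⟨p, rfl⟩ := Ideal.Quotient.mk_surjective x
        rw [← map_mul, Ideal.Quotient.eq_zero_iff_mem] at hx
        rw [Ideal.Quotient.eq_zero_iff_mem]
        have h3 := hr ⟨k, hk⟩ p
        rw [hset] at h3
        exact h3 (by rwa [mul_comm])
      · rw [Ideal.Quotient.factor_mk, Ideal.Quotient.eq_zero_iff_mem]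
        exact Ideal.subset_span ⟨⟨k, hk⟩, Nat.lt_succ_self k, rfl⟩
    calc ringKrullDim (MvPolynomial (Fin n) K ⧸ Ideal.span (f '' {j | (j : ℕ) < k + 1})) + ((k + 1 : ℕ) : WithBot ℕ∞)
        = (ringKrullDim (MvPolynomial (Fin n) K ⧸ Ideal.span (f '' {j | (j : ℕ) < k + 1})) + 1) + (k : ℕ) := by
          rw [Nat.cast_add, Nat.cast_one, add_assoc, add_comm (1 : WithBot ℕ∞)]
      _ ≤ ringKrullDim (MvPolynomial (Fin n) K ⧸ Ideal.span (f '' {j | (j : ℕ) < k})) + (k : ℕ) := by
          gcongr
      _ ≤ n := h1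

theorem REG_le {a : WithBot ℕ∞} {n : ℕ} (h : a + (n : ℕ) ≤ (n : ℕ)) : a ≤ 0 := by
  induction a using WithBot.recBotCoe with
  | bot => exact bot_le
  | coe a =>
    have h1 : a + (n : ℕ∞) ≤ (n : ℕ∞) := by exact_mod_cast h
    have h2 : a ≤ 0 := by
      by_contra hc
      have h3 : 1 ≤ a := Order.one_le_iff_pos.2 (not_le.1 hc)
      have h4 : (1 : ℕ∞) + n ≤ n := (by gcongr : (1 : ℕ∞) + n ≤ a + n).trans h1
      have h5 : (1 + n : ℕ) ≤ n := by exact_mod_cast h4
      omega
    exact_mod_cast h2

theorem prim_of_regSeq {K : Type*} [Field K] {n : ℕ} (f : Fin n → MvPolynomial (Fin n) K)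
    (hf : ∀ i, (f i).IsHomogeneous 2) (hr : IsRegSeq f) : Prim f := by
  have hdim : ringKrullDim (MvPolynomial (Fin n) K ⧸ Ideal.span (Set.range f)) ≤ 0 := by
    have h1 := REG_dim f hr n le_rfl
    have h2 : f '' {j | (j : ℕ) < n} = Set.range f := by
      rw [← Set.image_univ]
      congr 1
      ext j
      simp
    rw [h2] at h1
    exact REG_le h1
  have hK : Ring.KrullDimLE 0 (MvPolynomial (Fin n) K ⧸ Ideal.span (Set.range f)) := by
    rw [Ring.krullDimLE_iff]
    exact_mod_cast hdim
  have hA : IsArtinianRing (MvPolynomial (Fin n) K ⧸ Ideal.span (Set.range f)) :=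
    isArtinianRing_iff_krullDimLE_zero.2 hK
  obtain ⟨D, hD⟩ := IsArtinian.monotone_stabilizes
    (R := MvPolynomial (Fin n) K ⧸ Ideal.span (Set.range f))
    (M := MvPolynomial (Fin n) K ⧸ Ideal.span (Set.range f))
    ⟨fun k => OrderDual.toDual (((idealOfVars (Fin n) K).map (Ideal.Quotient.mk (Ideal.span (Set.range f)))) ^ k),
      fun a b hab => Ideal.pow_le_pow_right hab⟩
  have hD1 : ((idealOfVars (Fin n) K).map (Ideal.Quotient.mk (Ideal.span (Set.range f)))) ^ D
      = ((idealOfVars (Fin n) K).map (Ideal.Quotient.mk (Ideal.span (Set.range f)))) ^ (D + 1) :=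
    OrderDual.toDual.injective (hD (D + 1) (Nat.le_succ D))
  refine ⟨D, fun p hp => ?_⟩
  have h1 : p ∈ idealOfVars (Fin n) K ^ D := by
    rw [mem_pow_idealOfVars_iff]
    intro x hx
    have := hp (mem_support_iff.1 hx)
    have h0 : Finsupp.degree x = Finsupp.weight 1 x := by
      rw [Finsupp.degree_eq_weight_one]
      rfl
    rw [h0, this]
  have h2 : Ideal.Quotient.mk (Ideal.span (Set.range f)) p ∈
      (idealOfVars (Fin n) K ^ (D + 1)).map (Ideal.Quotient.mk (Ideal.span (Set.range f))) := by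
    rw [Ideal.map_pow, ← hD1, ← Ideal.map_pow]
    exact Ideal.mem_map_of_mem _ h1
  rw [Ideal.mem_map_iff_of_surjective _ Ideal.Quotient.mk_surjective] at h2
  obtain ⟨a, ha, hap⟩ := h2
  rw [Ideal.Quotient.eq] at hap
  have h3 := REG_homog f hf _ hap D
  have h4 : homogeneousComponent D a = 0 := by
    refine homogeneousComponent_eq_zero' D a fun x hx => ?_
    rw [mem_pow_idealOfVars_iff] at ha
    have := ha x hx
    omega
  have h5 : homogeneousComponent D p = p := by
    rw [homogeneousComponent_of_mem (n := D) (m := D) hp, if_pos rfl]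
  rw [map_sub, h4, h5, zero_sub] at h3
  exact neg_mem_iff.1 h3

end Vale.Agent.P200E
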