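import Vale.Agent.P200E.Main
import Vale.Agent.P200E.Complex
import Vale.Agent.P200E.Mono
import Vale.Agent.P200E.RegPrim
import Vale.Agent.P200E.Base

/-! P200: assembly. -/

namespace Vale.Agent.P200E

open MvPolynomial

theorem splits2_map {K M : Type*} [Field K] [Field M] {n : ℕ} (φ : K →+* M) {p : MvPolynomial (Fin n) K}
    (h : Splits2 p) : Splits2 (MvPolynomial.map φ p) := by
  obtain ⟨a, b, ha, hb, hab⟩ := h
  exact ⟨MvPolynomial.map φ a, MvPolynomial.map φ b, ha.map φ, hb.map φ, by rw [hab, map_mul]⟩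

theorem final {K : Type*} [Field K] (L : Type*) [Field L] [Algebra K L] (n : ℕ)
    (f : Fin n → MvPolynomial (Fin n) K) (hf : ∀ i, (f i).IsHomogeneous 2) (hr : IsRegSeq f)
    (s : Finset (Fin n)) (hs : s.card ≤ 4)
    (hsplit : ∀ i, i ∉ s → Splits2 (MvPolynomial.map (algebraMap K L) (f i)))
    (I : Ideal (MvPolynomial (Fin n) K)) (hI : IsHomog I) (hfI : ∀ i, f i ∈ I) :
    ∃ J : Ideal (MvPolynomial (Fin n) K), IsMonomialIdeal J ∧ (∀ i, X i ^ 2 ∈ J) ∧
      ∀ d, HF J d = HF I d := by
  obtain ⟨e, he⟩ := perm_of_card s hs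
  have hp : Prim f := prim_of_regSeq f hf hr
  have hp' : Prim (f ∘ e) := prim_perm f e hp
  have hgrow : ∀ d, G n d (HF I d) (HF I (d + 1)) := by
    intro d
    have hmap : (algebraMap L (AlgebraicClosure L)).comp (algebraMap K L) = algebraMap K (AlgebraicClosure L) :=
      (IsScalarTower.algebraMap_eq K L (AlgebraicClosure L)).symm
    have h := growth (K := AlgebraicClosure L) n
      (fun i => MvPolynomial.map (algebraMap K (AlgebraicClosure L)) ((f ∘ e) i))
      (fun i => (hf (e i)).map _) (prim_baseChange (AlgebraicClosure L) hp')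
      (fun i hi => by
        have h1 := splits2_map (algebraMap L (AlgebraicClosure L)) (hsplit (e i) (he i hi))
        rwa [MvPolynomial.map_map, hmap] at h1)
      _ (homog_baseChange (AlgebraicClosure L) hI)
      (fun i => Ideal.mem_map_of_mem _ (hfI (e i))) d
    rwa [HF_baseChange (AlgebraicClosure L) hI d, HF_baseChange (AlgebraicClosure L) hI (d + 1)] at h
  obtain ⟨D, hD1, hD2, hD3⟩ := exists_complex n (fun d => HF I d) hgrow
  obtain ⟨J, hJ1, hJ2, hJ3⟩ := exists_monomialIdeal K n D hD1 hD3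
  exact ⟨J, hJ1, hJ2, fun d => by rw [hJ3 d, hD2 d]⟩

end Vale.Agent.P200E
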