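import Vale.Agent.P200E.Defs

/-! Module HFA: basic facts on Hilbert functions.  HF I d = finrank of a map; by rank-nullity (Submodule.finrank_map etc.) it is
finrank (forms of degree d) - finrank (forms of degree d in I).  Forms of degree d are finite dimensional
(homogeneousSubmodule_fg).  HF_exact: multiplication by l gives an injective map from the degree d part of S/(I:l) to the degree d+1 part
of S/I, with image equal to the kernel of the map to the degree d+1 part of S/(I + (l)) (use homogeneity of I: if p of degree d+1 is i + l q,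
take homogeneous components). -/

namespace Vale.Agent.P200E

open MvPolynomial

variable {K : Type*} [Field K] {n : ℕ}

theorem HFA1_finite (I : Ideal (MvPolynomial (Fin n) K)) (d : ℕ) :
    Module.Finite K ((homogeneousSubmodule (Fin n) K d).map (Ideal.Quotient.mkₐ K I).toLinearMap) :=
  Module.Finite.iff_fg.2 ((homogeneousSubmodule_fg (Fin n) K d).map _)

theorem HF_anti {I J : Ideal (MvPolynomial (Fin n) K)} (h : I ≤ J) (d : ℕ) : HF J d ≤ HF I d := by
  unfold HF
  have := HFA1_finite I d
  have e : (homogeneousSubmodule (Fin n) K d).map (Ideal.Quotient.mkₐ K J).toLinearMap =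
      ((homogeneousSubmodule (Fin n) K d).map (Ideal.Quotient.mkₐ K I).toLinearMap).map
        (Ideal.Quotient.factorₐ K h).toLinearMap := by
    rw [← Submodule.map_comp]
    congr 1
  rw [e]
  exact Submodule.finrank_map_le _ _

theorem HFA1_comp_mul {l : MvPolynomial (Fin n) K} (hl : l.IsHomogeneous 1)
    (p : MvPolynomial (Fin n) K) (d : ℕ) :
    homogeneousComponent (d + 1) (l * p) = l * homogeneousComponent d p := by
  have key : ∀ N : ℕ, homogeneousComponent (d + 1) (l * ∑ i ∈ Finset.range N, homogeneousComponent i p) =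
      l * ∑ i ∈ Finset.range N, if d = i then homogeneousComponent i p else 0 := by
    intro N
    rw [Finset.mul_sum, Finset.mul_sum, map_sum]
    refine Finset.sum_congr rfl fun i _ => ?_
    have h1 : (l * homogeneousComponent i p) ∈ homogeneousSubmodule (Fin n) K (1 + i) :=
      hl.mul (homogeneousComponent_isHomogeneous i p)
    rw [homogeneousComponent_of_mem h1]
    by_cases hd : d = i
    · rw [if_pos hd, if_pos (by omega)]
    · rw [if_neg hd, if_neg (by omega), mul_zero]
  have h := key (max (p.totalDegree + 1) (d + 1))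
  have hs : ∑ i ∈ Finset.range (max (p.totalDegree + 1) (d + 1)), homogeneousComponent i p = p := by
    conv_rhs => rw [← sum_homogeneousComponent p]
    symm
    refine Finset.sum_subset (Finset.range_mono (le_max_left _ _)) fun i _ hi => ?_
    refine homogeneousComponent_eq_zero _ _ ?_
    simpa using hi
  rw [hs] at h
  rw [h, Finset.sum_ite_eq, if_pos (by simp)]

theorem homog_colon {I : Ideal (MvPolynomial (Fin n) K)} (hI : IsHomog I) {l : MvPolynomial (Fin n) K}
    (hl : l.IsHomogeneous 1) : IsHomog (colonI I l) := by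
  intro p hp d
  rw [mem_colonI] at hp ⊢
  rw [← HFA1_comp_mul hl]
  exact hI _ hp _

private theorem hfa2_fr {V W : Type*} [AddCommGroup V] [Module K V] [AddCommGroup W] [Module K W]
    (f : V →ₗ[K] W) (U : Submodule K V) [FiniteDimensional K U] :
    Module.finrank K (U.map f) + Module.finrank K (U ⊓ LinearMap.ker f : Submodule K V) =
      Module.finrank K U := by
  have h := LinearMap.finrank_range_add_finrank_ker (f.domRestrict U)
  rw [LinearMap.range_domRestrict] at h
  have h2 : Module.finrank K (LinearMap.ker (f.domRestrict U)) =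
      Module.finrank K (U ⊓ LinearMap.ker f : Submodule K V) := by
    have e : (LinearMap.ker (f.domRestrict U)).map U.subtype = U ⊓ LinearMap.ker f := by
      ext x
      constructor
      · rintro ⟨y, hy, rfl⟩
        exact ⟨y.2, hy⟩
      · rintro ⟨h1, h2⟩
        exact ⟨⟨x, h1⟩, h2, rfl⟩
    rw [← e]
    exact (Submodule.equivMapOfInjective U.subtype U.injective_subtype _).finrank_eq
  rw [h2] at h
  exact h

private theorem hfa2_fin (d : ℕ) : FiniteDimensional K (homogeneousSubmodule (Fin n) K d) := by
  exact Module.Finite.iff_fg.2 (homogeneousSubmodule_fg (Fin n) K d)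

private theorem hfa2_comp {l : MvPolynomial (Fin n) K} (hl : l.IsHomogeneous 1) (d : ℕ)
    (q : MvPolynomial (Fin n) K) :
    homogeneousComponent (d + 1) (l * q) = l * homogeneousComponent d q := by
  conv_lhs => rw [← sum_homogeneousComponent q, Finset.mul_sum, map_sum]
  have h : ∀ i, homogeneousComponent (d + 1) (l * homogeneousComponent i q) =
      if i = d then l * homogeneousComponent d q else 0 := by
    intro i
    have h1 : (l * homogeneousComponent i q).IsHomogeneous (1 + i) :=
      hl.mul (homogeneousComponent_isHomogeneous i q)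
    rw [homogeneousComponent_of_mem (n := 1 + i) (by rwa [mem_homogeneousSubmodule])]
    by_cases hid : i = d
    · subst hid
      simp [add_comm]
    · rw [if_neg hid, if_neg (by omega)]
  simp only [h]
  rw [Finset.sum_ite_eq']
  split_ifs with hd
  · rfl
  · rw [Finset.mem_range, not_lt] at hd
    rw [homogeneousComponent_eq_zero _ _ (by omega), mul_zero]

private theorem hfa2_mk (I : Ideal (MvPolynomial (Fin n) K)) (p : MvPolynomial (Fin n) K) :
    p ∈ LinearMap.ker (Ideal.Quotient.mkₐ K I).toLinearMap ↔ p ∈ I := by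
  rw [LinearMap.mem_ker]
  exact Ideal.Quotient.eq_zero_iff_mem

theorem HF_exact {I : Ideal (MvPolynomial (Fin n) K)} (hI : IsHomog I) {l : MvPolynomial (Fin n) K}
    (hl : l.IsHomogeneous 1) (d : ℕ) :
    HF I (d + 1) = HF (I ⊔ Ideal.span {l}) (d + 1) + HF (colonI I l) d := by
  have h0 : FiniteDimensional K (homogeneousSubmodule (Fin n) K d) := hfa2_fin d
  have h1 : FiniteDimensional K (homogeneousSubmodule (Fin n) K (d + 1)) := hfa2_fin (d + 1)
  set S₀ := homogeneousSubmodule (Fin n) K d with hS₀
  set S₁ := homogeneousSubmodule (Fin n) K (d + 1) with hS₁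
  set J := I ⊔ Ideal.span {l} with hJ
  set kI := LinearMap.ker (Ideal.Quotient.mkₐ K I).toLinearMap with hkI
  set kJ := LinearMap.ker (Ideal.Quotient.mkₐ K J).toLinearMap with hkJ
  set ml : MvPolynomial (Fin n) K →ₗ[K] MvPolynomial (Fin n) K := LinearMap.mulLeft K l with hml
  have ha := hfa2_fr (Ideal.Quotient.mkₐ K I).toLinearMap S₁
  have hb := hfa2_fr (Ideal.Quotient.mkₐ K J).toLinearMap S₁
  have hc := hfa2_fr (Ideal.Quotient.mkₐ K I).toLinearMap (S₁ ⊓ kJ)
  have hd := hfa2_fr (Ideal.Quotient.mkₐ K (colonI I l)).toLinearMap S₀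
  have he := hfa2_fr ((Ideal.Quotient.mkₐ K I).toLinearMap.comp ml) S₀
  have e1 : S₁ ⊓ kJ ⊓ kI = S₁ ⊓ kI := by
    ext p
    simp only [Submodule.mem_inf, hkI, hkJ, hfa2_mk]
    exact ⟨fun h => ⟨h.1.1, h.2⟩, fun h => ⟨⟨h.1, Ideal.mem_sup_left h.2⟩, h.2⟩⟩
  have e2 : LinearMap.ker (Ideal.Quotient.mkₐ K (colonI I l)).toLinearMap =
      LinearMap.ker ((Ideal.Quotient.mkₐ K I).toLinearMap.comp ml) := by
    ext p
    rw [hfa2_mk, mem_colonI, ← hfa2_mk I (l * p)]
    rfl
  have e3 : (S₁ ⊓ kJ).map (Ideal.Quotient.mkₐ K I).toLinearMap =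
      S₀.map ((Ideal.Quotient.mkₐ K I).toLinearMap.comp ml) := by
    ext x
    constructor
    · rintro ⟨p, ⟨hp1, hp2⟩, rfl⟩
      have hp3 : p ∈ J := (hfa2_mk J p).1 hp2
      obtain ⟨a, ha', b, hb', hab⟩ := Submodule.mem_sup.1 hp3
      obtain ⟨q, rfl⟩ := Ideal.mem_span_singleton.1 hb'
      refine ⟨homogeneousComponent d q, homogeneousComponent_mem d q, ?_⟩
      have hp4 : p = homogeneousComponent (d + 1) a + l * homogeneousComponent d q := by
        rw [← hfa2_comp hl, ← map_add, hab]
        exact (homogeneousComponent_eq_self hp1).symm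
      have h5 : (Ideal.Quotient.mkₐ K I) p =
          (Ideal.Quotient.mkₐ K I) (l * homogeneousComponent d q) := by
        refine (Ideal.Quotient.mk_eq_mk_iff_sub_mem _ _).2 ?_
        have h6 : p - l * homogeneousComponent d q = homogeneousComponent (d + 1) a :=
          sub_eq_iff_eq_add.2 hp4
        rw [h6]
        exact hI a ha' _
      exact h5.symm
    · rintro ⟨q, hq, rfl⟩
      refine ⟨l * q, ⟨?_, ?_⟩, rfl⟩
      · have : (l * q).IsHomogeneous (1 + d) := hl.mul hq
        rw [add_comm] at this
        exact this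
      · exact (hfa2_mk J _).2 (Ideal.mul_mem_right _ _
          (Ideal.mem_sup_right (Ideal.mem_span_singleton_self l)))
  rw [e1, e3] at hc
  rw [e2] at hd
  unfold HF
  rw [hkI, hkJ] at hc
  rw [← hS₀, ← hS₁]
  omega

theorem HFA1_zero_of_mem {I : Ideal (MvPolynomial (Fin n) K)} (h : (1 : MvPolynomial (Fin n) K) ∈ I) :
    HF I 0 = 0 := by
  unfold HF
  have : (homogeneousSubmodule (Fin n) K 0).map (Ideal.Quotient.mkₐ K I).toLinearMap = ⊥ := by
    rw [eq_bot_iff]
    rintro x ⟨y, -, rfl⟩
    rw [Submodule.mem_bot]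
    have hy : y ∈ I := by
      rw [(Ideal.eq_top_iff_one I).2 h]
      trivial
    exact Ideal.Quotient.eq_zero_iff_mem.2 hy
  rw [this, finrank_bot]

theorem HFA1_zero_of_not_mem {I : Ideal (MvPolynomial (Fin n) K)} (h : (1 : MvPolynomial (Fin n) K) ∉ I) :
    HF I 0 = 1 := by
  unfold HF
  have : (homogeneousSubmodule (Fin n) K 0).map (Ideal.Quotient.mkₐ K I).toLinearMap =
      Submodule.span K {(Ideal.Quotient.mkₐ K I) 1} := by
    rw [homogeneousSubmodule_zero, Submodule.one_eq_span, Submodule.map_span, Set.image_singleton]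
    rfl
  rw [this, finrank_span_singleton]
  intro h0
  exact h (Ideal.Quotient.eq_zero_iff_mem.1 h0)

theorem HF_deg_zero {I : Ideal (MvPolynomial (Fin n) K)} (hI : IsHomog I) {l : MvPolynomial (Fin n) K}
    (hl : l.IsHomogeneous 1) : HF (I ⊔ Ideal.span {l}) 0 = HF I 0 := by
  by_cases h : (1 : MvPolynomial (Fin n) K) ∈ I
  · rw [HFA1_zero_of_mem h, HFA1_zero_of_mem (Ideal.mem_sup_left h)]
  · rw [HFA1_zero_of_not_mem h, HFA1_zero_of_not_mem]
    intro h1
    obtain ⟨i, hi, m, hm, him⟩ := Submodule.mem_sup.1 h1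
    obtain ⟨q, rfl⟩ := Ideal.mem_span_singleton'.1 hm
    have hc := congrArg (homogeneousComponent 0) him
    have h2 : homogeneousComponent 0 (q * l) = 0 := by
      rw [homogeneousComponent_zero]
      have : coeff 0 l = 0 := by
        by_contra hne
        have := hl hne
        simp at this
      rw [← constantCoeff_eq, map_mul, constantCoeff_eq, this, mul_zero, map_zero]
    rw [map_add, h2, add_zero] at hc
    have h3 : homogeneousComponent 0 (1 : MvPolynomial (Fin n) K) = 1 := by
      rw [homogeneousComponent_zero]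
      simp
    rw [h3] at hc
    exact h (hc ▸ hI i hi 0)

theorem HF_zero_le (I : Ideal (MvPolynomial (Fin n) K)) : HF I 0 ≤ 1 := by
  by_cases h : (1 : MvPolynomial (Fin n) K) ∈ I
  · rw [HFA1_zero_of_mem h]
    omega
  · rw [HFA1_zero_of_not_mem h]

theorem HF_noVar (I : Ideal (MvPolynomial (Fin 0) K)) (d : ℕ) : HF I (d + 1) = 0 := by
  unfold HF
  have : homogeneousSubmodule (Fin 0) K (d + 1) = ⊥ := by
    rw [eq_bot_iff]
    intro p hp
    rw [Submodule.mem_bot]
    ext s
    by_contra hne
    rw [coeff_zero] at hne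
    have h1 := (mem_homogeneousSubmodule _ _).1 hp hne
    have hs : s = 0 := Subsingleton.elim _ _
    rw [hs] at h1
    simp at h1
  rw [this, Submodule.map_bot, finrank_bot]

end Vale.Agent.P200E
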