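import Vale.Agent.P200E.Defs

/-! Module HFB: Hilbert function of the image under a Sub (linear substitution killing l). The induced map
S_(n+1)/(I + (l)) -> S_n / s(I) is a graded isomorphism (s is surjective by st, kernel (l); use hs, ht). -/

namespace Vale.Agent.P200E

open MvPolynomial

variable {K : Type*} [Field K] {n : ℕ}

theorem HFB_surj {l : MvPolynomial (Fin (n + 1)) K} (σ : Sub l) : Function.Surjective σ.s :=
  fun q => ⟨σ.t q, σ.st q⟩

theorem HFB_comp {l : MvPolynomial (Fin (n + 1)) K} (σ : Sub l) (p : MvPolynomial (Fin (n + 1)) K) (d : ℕ) :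
    homogeneousComponent d (σ.s p) = σ.s (homogeneousComponent d p) := by
  have key : ∀ N : ℕ, homogeneousComponent d (σ.s (∑ i ∈ Finset.range N, homogeneousComponent i p)) =
      σ.s (∑ i ∈ Finset.range N, if d = i then homogeneousComponent i p else 0) := by
    intro N
    rw [map_sum, map_sum, map_sum]
    refine Finset.sum_congr rfl fun i _ => ?_
    have h1 : σ.s (homogeneousComponent i p) ∈ homogeneousSubmodule (Fin n) K i :=
      σ.hs _ _ (homogeneousComponent_isHomogeneous i p)
    rw [homogeneousComponent_of_mem h1]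
    by_cases hd : d = i
    · rw [if_pos hd, if_pos hd]
    · rw [if_neg hd, if_neg hd, map_zero]
  have h := key (max (p.totalDegree + 1) (d + 1))
  have hs : ∑ i ∈ Finset.range (max (p.totalDegree + 1) (d + 1)), homogeneousComponent i p = p := by
    conv_rhs => rw [← sum_homogeneousComponent p]
    symm
    refine Finset.sum_subset (Finset.range_mono (le_max_left _ _)) fun i _ hi => ?_
    refine homogeneousComponent_eq_zero _ _ ?_
    simpa using hi
  rw [hs] at h
  rw [h, Finset.sum_ite_eq, if_pos (by simp)]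

theorem homog_map_sub {l : MvPolynomial (Fin (n + 1)) K} (σ : Sub l) {I : Ideal (MvPolynomial (Fin (n + 1)) K)}
    (hI : IsHomog I) : IsHomog (I.map σ.s) := by
  intro q hq d
  obtain ⟨p, hp, rfl⟩ := (Ideal.mem_map_iff_of_surjective σ.s (HFB_surj σ)).1 hq
  rw [HFB_comp]
  exact Ideal.mem_map_of_mem _ (hI p hp d)

theorem HFB_finrank {V W W' : Type*} [AddCommGroup V] [Module K V] [AddCommGroup W] [Module K W]
    [AddCommGroup W'] [Module K W'] (H : Submodule K V) (f : V →ₗ[K] W) (g : V →ₗ[K] W')
    (h : LinearMap.ker f = LinearMap.ker g) : Module.finrank K (H.map f) = Module.finrank K (H.map g) := by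
  have h1 : LinearMap.ker (f.domRestrict H) = LinearMap.ker (g.domRestrict H) := by
    ext x
    simp only [LinearMap.mem_ker, LinearMap.domRestrict_apply]
    rw [← LinearMap.mem_ker, h, LinearMap.mem_ker]
  have h2 : H.map f = LinearMap.range (f.domRestrict H) := by
    rw [LinearMap.range_domRestrict]
  have h3 : H.map g = LinearMap.range (g.domRestrict H) := by
    rw [LinearMap.range_domRestrict]
  rw [h2, h3]
  exact (((f.domRestrict H).quotKerEquivRange.symm.trans (Submodule.quotEquivOfEq _ _ h1)).trans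
    (g.domRestrict H).quotKerEquivRange).finrank_eq

theorem HF_map_sub {l : MvPolynomial (Fin (n + 1)) K} (σ : Sub l) (I : Ideal (MvPolynomial (Fin (n + 1)) K))
    (d : ℕ) : HF (I.map σ.s) d = HF (I ⊔ Ideal.span {l}) d := by
  unfold HF
  have e : homogeneousSubmodule (Fin n) K d =
      (homogeneousSubmodule (Fin (n + 1)) K d).map σ.s.toLinearMap := by
    ext q
    constructor
    · intro hq
      exact ⟨σ.t q, σ.ht q d hq, σ.st q⟩
    · rintro ⟨p, hp, rfl⟩
      exact σ.hs p d hp
  rw [e, ← Submodule.map_comp]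
  apply HFB_finrank
  ext p
  rw [LinearMap.mem_ker, LinearMap.mem_ker]
  have h1 : ((Ideal.Quotient.mkₐ K (I.map σ.s)).toLinearMap ∘ₗ σ.s.toLinearMap) p = 0 ↔ σ.s p ∈ I.map σ.s :=
    Ideal.Quotient.eq_zero_iff_mem
  have h2 : (Ideal.Quotient.mkₐ K (I ⊔ Ideal.span {l})).toLinearMap p = 0 ↔ p ∈ I ⊔ Ideal.span {l} :=
    Ideal.Quotient.eq_zero_iff_mem
  rw [h1, h2]
  constructor
  · intro h
    obtain ⟨i, hi, his⟩ := (Ideal.mem_map_iff_of_surjective σ.s (HFB_surj σ)).1 h
    have h3 : p - i ∈ Ideal.span {l} := (σ.ker _).1 (by rw [map_sub, his, sub_self])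
    rw [show p = i + (p - i) by ring]
    exact Submodule.add_mem_sup hi h3
  · intro h
    obtain ⟨i, hi, m, hm, rfl⟩ := Submodule.mem_sup.1 h
    rw [map_add, (σ.ker m).2 hm, add_zero]
    exact Ideal.mem_map_of_mem _ hi

end Vale.Agent.P200E
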