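import Vale.Agent.P200E.Defs
import Mathlib.Combinatorics.SetFamily.KruskalKatona

/-! Module KK (Kruskal-Katona bookkeeping).
Hints. Use Finset.kruskal_katona, Finset.Colex.IsInitSeg (open Finset Finset.Colex).  First show: for k <= n.choose r there is an initial
segment of size k (initSeg of the k-th set, or remove the largest set repeatedly from powersetCard r univ).
Initial segments of the same r are nested (IsInitSeg.total), and the shadow of an initial segment is one (IsInitSeg.shadow).
kk_step: let B2, B1, C2, C1 be initial segments: B2 of b' sets of size d+2, B1 of b sets of size d+1, C2 of c' sets of size d+1.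
By KK shadow B2 has at most b elements, so shadow B2 is contained in B1; c' <= b gives C2 contained in B1; shadow C2 has at most c
elements.  In Fin (n+1) (embed by castSucc, extra point last) take F = B2 (embedded) together with (insert last C : C in C2).  Its shadow is
contained in B1 (embedded) together with (insert last D : D in shadow C2).  a <= choose: Pascal.
kk_step0: singletons; the shadow of any family of singletons is contained in {empty}. -/

namespace Vale.Agent.P200E

open Finset

theorem kk_initSeg (n r k : ℕ) (hk : k ≤ n.choose r) :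
    ∃ C : Finset (Finset (Fin n)), Finset.Colex.IsInitSeg C r ∧ C.card = k := by
  induction k with
  | zero =>
    refine ⟨∅, ⟨?_, ?_⟩, rfl⟩
    · intro s hs
      simp at hs
    · intro s t hs
      simp at hs
  | succ k ih =>
    obtain ⟨C, hC, hCk⟩ := ih (by omega)
    have hsub : C ⊆ powersetCard r (univ : Finset (Fin n)) := fun s hs =>
      mem_powersetCard_univ.2 (hC.1 (mem_coe.2 hs))
    have hne : (powersetCard r (univ : Finset (Fin n)) \ C).Nonempty := by
      rw [← card_pos, card_sdiff_of_subset hsub, card_powersetCard, card_univ, Fintype.card_fin, hCk]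
      omega
    obtain ⟨m, hm, hmin⟩ := exists_min_image _ (fun s => toColex s) hne
    rw [mem_sdiff, mem_powersetCard_univ] at hm
    refine ⟨insert m C, ⟨?_, ?_⟩, ?_⟩
    · intro s hs
      rw [mem_coe, mem_insert] at hs
      rcases hs with rfl | hs
      · exact hm.1
      · exact hC.1 (mem_coe.2 hs)
    · intro s t hs ht
      rw [mem_insert] at hs
      rcases hs with rfl | hs
      · by_contra hc
        rw [mem_insert, not_or] at hc
        have h1 := hmin t (mem_sdiff.2 ⟨mem_powersetCard_univ.2 ht.2, hc.2⟩)
        exact absurd ht.1 (not_lt.2 h1)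
      · exact mem_insert_of_mem (hC.2 hs ht)
    · rw [card_insert_of_notMem hm.2, hCk]

theorem kk_base (d a : ℕ) (ha : a ≤ (0 : ℕ).choose d) : G 0 d a 0 := by
  refine ⟨ha, ∅, ?_, ?_, ?_⟩
  · intro x hx
    simp at hx
  · simp
  · simp

theorem KK2_sized_card {n r : ℕ} {F : Finset (Finset (Fin n))}
    (hF : (F : Set (Finset (Fin n))).Sized r) : F.card ≤ n.choose r := by
  have h := hF.card_le
  simpa using h

theorem kk_step0 (n b b' c : ℕ) (hB : G n 0 b b') (hc : c ≤ b) : G (n + 1) 0 b (b' + c) := by
  obtain ⟨hb, F, hF, hFc, hFs⟩ := hB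
  have hb1 : b ≤ 1 := by simpa using hb
  have hbn : b' ≤ n := by
    have h := KK2_sized_card hF
    rw [hFc] at h
    simpa using h
  rcases Nat.eq_zero_or_pos b with hb0 | hbpos
  · subst hb0
    have hc0 : c = 0 := by omega
    subst hc0
    have hF0 : F = ∅ := by
      by_contra hne
      obtain ⟨A, hA⟩ := Finset.nonempty_iff_ne_empty.2 hne
      have hA1 : A.card = 1 := by
        have := hF hA
        simpa using this
      obtain ⟨a, ha⟩ := Finset.card_eq_one.1 hA1
      have hmem : A.erase a ∈ F.shadow := Finset.erase_mem_shadow hA (by rw [ha]; simp)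
      have hpos : 0 < F.shadow.card := Finset.card_pos.2 ⟨_, hmem⟩
      omega
    subst hF0
    simp at hFc
    subst hFc
    refine ⟨by simp, ∅, ?_, ?_, ?_⟩
    · intro x hx
      simp at hx
    · simp
    · simp
  · have hb' : b = 1 := by omega
    subst hb'
    have hcard : b' + c ≤ (powersetCard 1 (univ : Finset (Fin (n + 1)))).card := by
      rw [Finset.card_powersetCard]
      simp
      omega
    obtain ⟨F', hF'sub, hF'card⟩ := Finset.exists_subset_card_eq hcard
    refine ⟨by simp, F', ?_, hF'card, ?_⟩
    · intro x hx
      have := hF'sub (Finset.mem_coe.1 hx)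
      rw [Finset.mem_powersetCard] at this
      simpa using this.2
    · have hsub : F'.shadow ⊆ {∅} := by
        intro s hs
        rw [Finset.mem_shadow_iff] at hs
        obtain ⟨t, ht, a, ha, hst⟩ := hs
        have h1 := hF'sub ht
        rw [Finset.mem_powersetCard] at h1
        obtain ⟨x, hx⟩ := Finset.card_eq_one.1 h1.2
        subst hx
        rw [Finset.mem_singleton] at ha
        subst ha
        rw [← hst]
        simp
      refine (Finset.card_le_card hsub).trans ?_
      simp

theorem KK2_nested {n r : ℕ} {A B : Finset (Finset (Fin n))} (hA : Finset.Colex.IsInitSeg A r)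
    (hB : Finset.Colex.IsInitSeg B r) (h : A.card ≤ B.card) : A ⊆ B := by
  rcases hA.total hB with h1 | h1
  · exact h1
  · exact (Finset.eq_of_subset_of_card_le h1 h).symm.subset

theorem kk_step (n d b b' c c' : ℕ) (hB : G n (d + 1) b b') (hC : G n d c c') (hc : c' ≤ b) :
    G (n + 1) (d + 1) (b + c) (b' + c') := by
  obtain ⟨hb, FB, hFB, hFBc, hFBs⟩ := hB
  obtain ⟨hcn, FC, hFC, hFCc, hFCs⟩ := hC
  have hb'n : b' ≤ n.choose (d + 1 + 1) := by
    rw [← hFBc]
    exact KK2_sized_card hFB
  obtain ⟨B2, hB2, hB2c⟩ := kk_initSeg n (d + 1 + 1) b' hb'n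
  obtain ⟨B1, hB1, hB1c⟩ := kk_initSeg n (d + 1) b hb
  obtain ⟨C2, hC2, hC2c⟩ := kk_initSeg n (d + 1) c' (hc.trans hb)
  have hsB2 : B2.shadow.card ≤ b :=
    (Finset.kruskal_katona hFB (by rw [hB2c, hFBc]) hB2).trans hFBs
  have hsC2 : C2.shadow.card ≤ c :=
    (Finset.kruskal_katona hFC (by rw [hC2c, hFCc]) hC2).trans hFCs
  have hB2B1 : B2.shadow ⊆ B1 := by
    refine KK2_nested ?_ hB1 (by rw [hB1c]; exact hsB2)
    have := hB2.shadow
    simpa using this
  have hC2B1 : C2 ⊆ B1 := KK2_nested hC2 hB1 (by rw [hC2c, hB1c]; exact hc)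
  set e : Fin n ↪ Fin (n + 1) := Fin.castSuccEmb with he
  have hlast : ∀ s : Finset (Fin n), Fin.last n ∉ s.map e := by
    intro s hs
    rw [Finset.mem_map] at hs
    obtain ⟨a, _, ha⟩ := hs
    exact absurd ha (Fin.castSucc_lt_last a).ne
  have hinj1 : Function.Injective fun s : Finset (Fin n) => s.map e := Finset.map_injective e
  have hinj2 : Function.Injective fun s : Finset (Fin n) => insert (Fin.last n) (s.map e) := by
    intro s t hst
    simp only at hst
    have h1 : (insert (Fin.last n) (s.map e)).erase (Fin.last n)
        = (insert (Fin.last n) (t.map e)).erase (Fin.last n) := by rw [hst]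
    rw [Finset.erase_insert (hlast s), Finset.erase_insert (hlast t)] at h1
    exact hinj1 h1
  refine ⟨?_, (B2.image fun s => s.map e) ∪ (C2.image fun s => insert (Fin.last n) (s.map e)),
    ?_, ?_, ?_⟩
  · have h := Nat.choose_succ_succ n d
    simp only [Nat.succ_eq_add_one] at h
    rw [h]
    omega
  · intro x hx
    rw [Finset.mem_coe, Finset.mem_union, Finset.mem_image, Finset.mem_image] at hx
    rcases hx with ⟨s, hs, rfl⟩ | ⟨s, hs, rfl⟩
    · rw [Finset.card_map]
      exact hB2.1 hs
    · rw [Finset.card_insert_of_notMem (hlast s), Finset.card_map]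
      have := hC2.1 hs
      omega
  · rw [Finset.card_union_of_disjoint, Finset.card_image_of_injective _ hinj1,
      Finset.card_image_of_injective _ hinj2, hB2c, hC2c]
    rw [Finset.disjoint_left]
    intro x hx hx'
    rw [Finset.mem_image] at hx hx'
    obtain ⟨s, _, rfl⟩ := hx
    obtain ⟨t, _, ht⟩ := hx'
    apply hlast s
    rw [← ht]
    exact Finset.mem_insert_self _ _
  · have hsub : ((B2.image fun s => s.map e) ∪
        (C2.image fun s => insert (Fin.last n) (s.map e))).shadow ⊆
        (B1.image fun s => s.map e) ∪
        (C2.shadow.image fun s => insert (Fin.last n) (s.map e)) := by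
      intro x hx
      rw [Finset.mem_shadow_iff] at hx
      obtain ⟨t, ht, a, ha, hxa⟩ := hx
      rw [Finset.mem_union, Finset.mem_image, Finset.mem_image] at ht
      rw [Finset.mem_union, Finset.mem_image, Finset.mem_image]
      rcases ht with ⟨s, hs, rfl⟩ | ⟨s, hs, rfl⟩
      · left
        rw [Finset.mem_map] at ha
        obtain ⟨a', ha', rfl⟩ := ha
        refine ⟨s.erase a', hB2B1 (Finset.erase_mem_shadow hs ha'), ?_⟩
        rw [← hxa, Finset.map_erase]
      · rw [Finset.mem_insert] at ha
        rcases ha with rfl | ha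
        · left
          refine ⟨s, hC2B1 hs, ?_⟩
          rw [← hxa, Finset.erase_insert (hlast s)]
        · right
          rw [Finset.mem_map] at ha
          obtain ⟨a', ha', rfl⟩ := ha
          refine ⟨s.erase a', Finset.erase_mem_shadow hs ha', ?_⟩
          rw [← hxa, Finset.map_erase, Finset.erase_insert_of_ne]
          exact (Fin.castSucc_lt_last a').ne'
    refine (Finset.card_le_card hsub).trans ?_
    refine (Finset.card_union_le _ _).trans ?_
    have h1 := Finset.card_image_le (s := B1) (f := fun s => s.map e)
    have h2 := Finset.card_image_le (s := C2.shadow)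
      (f := fun s => insert (Fin.last n) (s.map e))
    omega

end Vale.Agent.P200E
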