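import Vale.Agent.P200E.Bil

/-! Module RED: for n <= 4 over an algebraically closed field, the span of n linearly independent quadrics in n variables contains a product of
two nonzero linear forms.  Proof: dim S_2 = n(n+1)/2 (only the upper bound is needed), so span(f) is the common kernel (inside S_2) of r <= n(n-1)/2 <= 2(n-1)
linear functionals phi_i on S_2; apply bil to B_i(u,v) = phi_i(l_u l_v), l_u = sum u_j X_j. -/

namespace Vale.Agent.P200E

open MvPolynomial

/-- the product of the two variables -/
noncomputable def RED_g (K : Type*) [Field K] (n : ℕ) : Sym2 (Fin n) → MvPolynomial (Fin n) K :=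
  Sym2.lift ⟨fun i j => X i * X j, fun _ _ => mul_comm _ _⟩

theorem RED_le_span (K : Type*) [Field K] (n : ℕ) :
    homogeneousSubmodule (Fin n) K 2 ≤ Submodule.span K (Set.range (RED_g K n)) := by
  classical
  intro p hp
  rw [mem_homogeneousSubmodule] at hp
  rw [p.as_sum]
  refine Submodule.sum_mem _ fun d hd => ?_
  have hd2 : d.degree = 2 := by
    have := hp (mem_support_iff.1 hd)
    rw [Finsupp.degree_eq_weight_one]
    exact this
  have hc : (Finsupp.toMultiset d).card = 2 := by
    rw [Finsupp.card_toMultiset, ← hd2, Finsupp.degree_eq_sum, Finsupp.sum_fintype _ _ (by simp)]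
    simp
  obtain ⟨i, j, hij⟩ := Multiset.card_eq_two.1 hc
  have hd3 : d = Finsupp.single i 1 + Finsupp.single j 1 := by
    ext a
    rw [← Finsupp.count_toMultiset, ← Finsupp.count_toMultiset, hij, map_add,
      Finsupp.toMultiset_single, Finsupp.toMultiset_single]
    simp [Multiset.insert_eq_cons, Multiset.count_cons, Multiset.count_singleton, add_comm]
  have h4 : monomial d (coeff d p) = coeff d p • RED_g K n s(i, j) := by
    unfold RED_g
    rw [Sym2.lift_mk]
    simp only
    rw [X, X, monomial_mul, ← hd3, smul_monomial]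
    simp
  rw [h4]
  exact Submodule.smul_mem _ _ (Submodule.subset_span ⟨_, rfl⟩)

instance RED_fin (K : Type*) [Field K] (n : ℕ) :
    FiniteDimensional K (homogeneousSubmodule (Fin n) K 2) := by
  have : FiniteDimensional K (Submodule.span K (Set.range (RED_g K n))) :=
    FiniteDimensional.span_of_finite K (Set.finite_range _)
  exact Submodule.finiteDimensional_of_le (RED_le_span K n)

theorem RED_finrank_le (K : Type*) [Field K] (n : ℕ) :
    Module.finrank K (homogeneousSubmodule (Fin n) K 2) ≤ (n + 1).choose 2 := by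
  have h0 : FiniteDimensional K (Submodule.span K (Set.range (RED_g K n))) :=
    FiniteDimensional.span_of_finite K (Set.finite_range _)
  refine (Submodule.finrank_mono (RED_le_span K n)).trans ?_
  have h1 := finrank_range_le_card (R := K) (RED_g K n)
  rw [Sym2.card, Fintype.card_fin] at h1
  exact h1

/-- the linear form with coefficients `u` -/
noncomputable def RED_lin (K : Type*) [Field K] (n : ℕ) :
    (Fin n → K) →ₗ[K] MvPolynomial (Fin n) K :=
  Fintype.linearCombination K (fun j => (X j : MvPolynomial (Fin n) K))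

theorem RED_lin_apply {K : Type*} [Field K] {n : ℕ} (u : Fin n → K) :
    RED_lin K n u = ∑ j, u j • (X j : MvPolynomial (Fin n) K) := by
  unfold RED_lin
  rw [Fintype.linearCombination_apply]

theorem RED_lin_hom {K : Type*} [Field K] {n : ℕ} (u : Fin n → K) :
    (RED_lin K n u).IsHomogeneous 1 := by
  rw [← mem_homogeneousSubmodule, RED_lin_apply]
  refine Submodule.sum_mem _ fun j _ => Submodule.smul_mem _ _ ?_
  rw [mem_homogeneousSubmodule]
  exact isHomogeneous_X K j

theorem RED_lin_ne {K : Type*} [Field K] {n : ℕ} {u : Fin n → K} (hu : u ≠ 0) :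
    RED_lin K n u ≠ 0 := by
  classical
  intro h
  apply hu
  ext j
  have h1 := congrArg (coeff (Finsupp.single j 1)) h
  rw [RED_lin_apply, coeff_sum] at h1
  simp only [coeff_smul, coeff_X, coeff_zero, smul_eq_mul, mul_ite, mul_one, mul_zero] at h1
  rw [Finset.sum_eq_single j] at h1
  · simpa using h1
  · intro b _ hb
    rw [if_neg]
    intro h2
    exact hb (Finsupp.single_left_injective one_ne_zero h2)
  · simp

theorem RED_mul_mem {K : Type*} [Field K] {n : ℕ} (u v : Fin n → K) :
    RED_lin K n u * RED_lin K n v ∈ homogeneousSubmodule (Fin n) K 2 := by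
  rw [mem_homogeneousSubmodule]
  exact (RED_lin_hom u).mul (RED_lin_hom v)

/-- the product of linear forms, as a bilinear map -/
noncomputable def RED_m (K : Type*) [Field K] (n : ℕ) :
    (Fin n → K) →ₗ[K] (Fin n → K) →ₗ[K] homogeneousSubmodule (Fin n) K 2 :=
  LinearMap.mk₂ K (fun u v => ⟨RED_lin K n u * RED_lin K n v, RED_mul_mem u v⟩)
    (fun u u' v => by ext1; simp [add_mul]) (fun c u v => by ext1; simp)
    (fun u v v' => by ext1; simp [mul_add]) (fun c u v => by ext1; simp)

theorem red {K : Type*} [Field K] [IsAlgClosed K] (n : ℕ) (hn : 1 ≤ n) (hn4 : n ≤ 4)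
    (f : Fin n → MvPolynomial (Fin n) K) (hf : ∀ i, (f i).IsHomogeneous 2) (hli : LinearIndependent K f) :
    ∃ l l' : MvPolynomial (Fin n) K, l.IsHomogeneous 1 ∧ l'.IsHomogeneous 1 ∧ l ≠ 0 ∧ l' ≠ 0 ∧
      l * l' ∈ Submodule.span K (Set.range f) := by
  classical
  set W := Submodule.span K (Set.range f) with hW
  have hWle : W ≤ homogeneousSubmodule (Fin n) K 2 := by
    rw [hW, Submodule.span_le]
    rintro _ ⟨i, rfl⟩
    exact (mem_homogeneousSubmodule _ _).2 (hf i)
  set W' : Submodule K (homogeneousSubmodule (Fin n) K 2) :=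
    W.comap (homogeneousSubmodule (Fin n) K 2).subtype with hW'
  have hWr : Module.finrank K W' = n := by
    have e := Submodule.comapSubtypeEquivOfLe hWle
    rw [e.finrank_eq, hW, finrank_span_eq_card hli, Fintype.card_fin]
  have hq := Submodule.finrank_quotient_add_finrank W'
  have hle := RED_finrank_le K n
  have hr : Module.finrank K (homogeneousSubmodule (Fin n) K 2 ⧸ W') ≤ 2 * (n - 1) := by
    have hch : (n + 1).choose 2 ≤ n + 2 * (n - 1) := by
      interval_cases n <;> decide
    omega
  let b := Module.finBasis K (homogeneousSubmodule (Fin n) K 2 ⧸ W')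
  obtain ⟨u, v, hu, hv, hB⟩ := bil n _ hn hr
    (fun i => (RED_m K n).compr₂ ((b.coord i).comp W'.mkQ))
  refine ⟨RED_lin K n u, RED_lin K n v, RED_lin_hom u, RED_lin_hom v, RED_lin_ne hu,
    RED_lin_ne hv, ?_⟩
  have h1 : W'.mkQ (RED_m K n u v) = 0 := by
    apply b.ext_elem
    intro i
    have := hB i
    simpa using this
  rw [Submodule.mkQ_apply, Submodule.Quotient.mk_eq_zero] at h1
  exact h1

end Vale.Agent.P200E
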