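import Vale.Agent.P200E.Defs

/-! Module SUB. Let c_i = coeff of X i in l; some c_j is nonzero.  s : X j -> -(1/c_j) sum over i different from j of c_i X (i'),
X i -> X i' where i = j.succAbove i'; t : X i' -> X (j.succAbove i').  s (t q) = q clear.  kernel: p - t (s p) is in (l) for p = X i,
hence for all p (the set of p with p - t (s p) in (l) is a subalgebra: MvPolynomial.induction_on); and s l = 0. -/

namespace Vale.Agent.P200E

open MvPolynomial

theorem sub_lin {K : Type*} [Field K] {n : ℕ} (l : MvPolynomial (Fin n) K)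
    (hl : l.IsHomogeneous 1) : l = ∑ i, C (coeff (Finsupp.single i 1) l) * X i := by
  classical
  ext m
  rw [coeff_sum]
  simp only [coeff_C_mul]
  by_cases hm : m.degree = 1
  · obtain ⟨i, hi⟩ : ∃ i, m = Finsupp.single i 1 := by
      exact (Finsupp.sum_eq_one_iff m).mp hm
    subst hi
    rw [Finset.sum_eq_single i]
    · simp
    · intro j _ hj
      rw [coeff_X, if_neg, mul_zero]
      intro h
      exact hj (Finsupp.single_left_injective one_ne_zero h)
    · simp
  · rw [hl.coeff_eq_zero hm]
    symm
    refine Finset.sum_eq_zero fun j _ => ?_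
    rw [coeff_X, if_neg, mul_zero]
    intro h
    exact hm (by rw [← h]; simp)

theorem exists_sub {K : Type*} [Field K] {n : ℕ} (l : MvPolynomial (Fin (n + 1)) K) (hl : l.IsHomogeneous 1)
    (h0 : l ≠ 0) : Nonempty (Sub l) := by
  classical
  set c : Fin (n + 1) → K := fun i => coeff (Finsupp.single i 1) l with hc
  have hlin : l = ∑ i, C (c i) * X i := sub_lin l hl
  obtain ⟨j, hj⟩ : ∃ j, c j ≠ 0 := by
    by_contra h
    push Not at h
    apply h0
    rw [hlin]
    exact Finset.sum_eq_zero fun i _ => by rw [h i, C_0, zero_mul]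
  set r : MvPolynomial (Fin n) K := -(C (c j)⁻¹ * ∑ k, C (c (j.succAbove k)) * X k) with hr
  set g : Fin (n + 1) → MvPolynomial (Fin n) K := j.insertNth r (fun k => X k) with hg
  have gj : g j = r := by rw [hg]; exact Fin.insertNth_apply_same _ _ _
  have gk : ∀ k, g (j.succAbove k) = X k := fun k => by
    rw [hg]; exact Fin.insertNth_apply_succAbove _ _ _ _
  have hghom : ∀ i, (g i).IsHomogeneous 1 := by
    intro i
    rcases Fin.eq_self_or_eq_succAbove j i with h | ⟨k, h⟩
    · rw [h, gj, hr]
      refine IsHomogeneous.neg ?_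
      have h1 : (∑ k, C (c (j.succAbove k)) * X k : MvPolynomial (Fin n) K).IsHomogeneous 1 := by
        refine IsHomogeneous.sum _ _ _ fun k _ => ?_
        have := (isHomogeneous_C (Fin n) (c (j.succAbove k))).mul (isHomogeneous_X K k)
        simpa using this
      have := (isHomogeneous_C (Fin n) (c j)⁻¹).mul h1
      simpa using this
    · rw [h, gk]
      exact isHomogeneous_X K k
  have hsl : aeval g l = 0 := by
    rw [hlin, map_sum, Fin.sum_univ_succAbove _ j]
    simp only [map_mul, aeval_X, gj, gk, algHom_C, algebraMap_eq]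
    rw [hr, mul_neg, ← mul_assoc, ← C_mul, mul_inv_cancel₀ hj, C_1, one_mul, neg_add_cancel]
  have hst : ∀ q : MvPolynomial (Fin n) K, aeval g (rename j.succAbove q) = q := by
    intro q
    rw [aeval_rename]
    have : g ∘ j.succAbove = X := by
      funext k
      exact gk k
    rw [this, aeval_X_left, AlgHom.id_apply]
  have hquot : (Ideal.Quotient.mkₐ K (Ideal.span {l})).comp ((rename j.succAbove).comp (aeval g)) =
      Ideal.Quotient.mkₐ K (Ideal.span {l}) := by
    apply algHom_ext
    intro i
    simp only [AlgHom.comp_apply, aeval_X]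
    rcases Fin.eq_self_or_eq_succAbove j i with h | ⟨k, h⟩
    · rw [h, gj]
      rw [Ideal.Quotient.mkₐ_eq_mk]
      rw [Ideal.Quotient.mk_eq_mk_iff_sub_mem, Ideal.mem_span_singleton]
      refine ⟨-C (c j)⁻¹, ?_⟩
      conv_rhs => rw [hlin, Fin.sum_univ_succAbove _ j]
      rw [hr, map_neg, map_mul, map_sum]
      simp only [map_mul, rename_X, rename_C]
      have h2 : (C (c j)⁻¹ * C (c j) : MvPolynomial (Fin (n + 1)) K) = 1 := by
        rw [← C_mul, inv_mul_cancel₀ hj, C_1]
      linear_combination (X j : MvPolynomial (Fin (n + 1)) K) * h2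
    · rw [h, gk, rename_X]
  refine ⟨⟨aeval g, rename j.succAbove, ?_, ?_, hst, ?_⟩⟩
  · intro p d hp
    have := hp.aeval g hghom
    rwa [one_mul] at this
  · intro q d hq
    exact hq.rename_isHomogeneous
  · intro p
    constructor
    · intro hp
      have h1 := congrArg (fun f => f p) hquot
      simp only [AlgHom.comp_apply, hp, map_zero] at h1
      rw [Ideal.Quotient.mkₐ_eq_mk] at h1
      exact Ideal.Quotient.eq_zero_iff_mem.mp h1.symm
    · intro hp
      obtain ⟨q, rfl⟩ := Ideal.mem_span_singleton.mp hp
      rw [map_mul, hsl, zero_mul]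

end Vale.Agent.P200E
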