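import Vale.Agent.P200E.Few

/-! Module SWAP. li_of_prim: if f were dependent, some f_j would be in the span of the others, so n-1 quadrics would be Prim: contradiction to few.
replace_last: q = sum c_i f_i with some c_j nonzero; let g be f with f_j replaced by q, then swap positions j and last (Equiv.swap).
perm_of_card: choose a bijection of s with a subset of the first indices. prim_perm: same range. -/

namespace Vale.Agent.P200E

open MvPolynomial

variable {K : Type*} [Field K] {n : ℕ}

theorem li_of_prim (f : Fin n → MvPolynomial (Fin n) K) (hf : ∀ i, (f i).IsHomogeneous 2) (hp : Prim f) :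
    LinearIndependent K f := by
  classical
  rw [linearIndependent_iff_notMem_span]
  intro i hi
  obtain ⟨m, rfl⟩ : ∃ m, n = m + 1 := ⟨n - 1, by have := i.pos; omega⟩
  refine few (n := m + 1) (m := m) (Nat.lt_succ_self m) (fun j => f (i.succAbove j))
    (fun j => hf _) ?_
  obtain ⟨D, hD⟩ := hp
  refine ⟨D, fun p hp => ?_⟩
  have hle : Ideal.span (Set.range f) ≤ Ideal.span (Set.range (fun j => f (i.succAbove j))) := by
    rw [Ideal.span_le]
    rintro _ ⟨k, rfl⟩
    by_cases hk : k = i
    · subst hk
      have h2 : Submodule.span K (f '' (Set.univ \ {k})) ≤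
          (Ideal.span (Set.range (fun j => f (k.succAbove j)))).restrictScalars K := by
        rw [Submodule.span_le]
        rintro _ ⟨l, hl, rfl⟩
        obtain ⟨l', rfl⟩ := Fin.exists_succAbove_eq (x := l) (y := k) (by simpa using hl.2)
        exact Ideal.subset_span ⟨l', rfl⟩
      exact h2 hi
    · obtain ⟨l', rfl⟩ := Fin.exists_succAbove_eq (x := k) (y := i) hk
      exact Ideal.subset_span ⟨l', rfl⟩
  exact hle (hD p hp)

theorem replace_last (f : Fin (n + 1) → MvPolynomial (Fin (n + 1)) K) (hf : ∀ i, (f i).IsHomogeneous 2) (hp : Prim f)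
    (q : MvPolynomial (Fin (n + 1)) K) (hq0 : q ≠ 0) (hq : q ∈ Submodule.span K (Set.range f)) :
    ∃ g : Fin (n + 1) → MvPolynomial (Fin (n + 1)) K, (∀ i, (g i).IsHomogeneous 2) ∧ Prim g ∧ g (Fin.last n) = q ∧
      ∀ i, g i ∈ Ideal.span (Set.range f) := by
  classical
  have hle : Submodule.span K (Set.range f) ≤ (Ideal.span (Set.range f)).restrictScalars K := by
    rw [Submodule.span_le]
    exact fun x hx => Ideal.subset_span hx
  have hqh : q.IsHomogeneous 2 := by
    have h2 : Submodule.span K (Set.range f) ≤ homogeneousSubmodule (Fin (n + 1)) K 2 := by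
      rw [Submodule.span_le]
      rintro _ ⟨k, rfl⟩
      exact hf k
    exact h2 hq
  have hqI : q ∈ Ideal.span (Set.range f) := hle hq
  obtain ⟨c, hc⟩ := (Submodule.mem_span_range_iff_exists_fun K).mp hq
  obtain ⟨j, hj⟩ : ∃ j, c j ≠ 0 := by
    by_contra hcon
    push Not at hcon
    apply hq0
    rw [← hc]
    exact Finset.sum_eq_zero (fun i _ => by rw [hcon i, zero_smul])
  set g0 : Fin (n + 1) → MvPolynomial (Fin (n + 1)) K := Function.update f j q with hg0
  have hg0j : g0 j = q := by simp [hg0]
  have hg0i : ∀ i, i ≠ j → g0 i = f i := fun i hi => by simp [hg0, hi]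
  refine ⟨fun i => g0 (Equiv.swap j (Fin.last n) i), fun i => ?_, ?_, ?_, fun i => ?_⟩
  · beta_reduce
    generalize Equiv.swap j (Fin.last n) i = k
    by_cases hk : k = j
    · rw [hk, hg0j]; exact hqh
    · rw [hg0i k hk]; exact hf k
  · have hr : Set.range (fun i => g0 (Equiv.swap j (Fin.last n) i)) = Set.range g0 :=
      (Equiv.swap j (Fin.last n)).surjective.range_comp g0
    obtain ⟨D, hD⟩ := hp
    refine ⟨D, fun p hp => ?_⟩
    rw [hr]
    have hfj : f j ∈ Ideal.span (Set.range g0) := by
      have h3 : c j • f j = q - ∑ i ∈ Finset.univ.erase j, c i • f i := by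
        rw [← hc, ← Finset.add_sum_erase Finset.univ (fun i => c i • f i) (Finset.mem_univ j)]
        ring
      have h4 : c j • f j ∈ (Ideal.span (Set.range g0)).restrictScalars K := by
        rw [h3]
        refine Submodule.sub_mem _ ?_ (Submodule.sum_mem _ fun i hi => ?_)
        · exact Ideal.subset_span ⟨j, hg0j⟩
        · refine Submodule.smul_mem _ _ ?_
          exact Ideal.subset_span ⟨i, hg0i i (Finset.ne_of_mem_erase hi)⟩
      have h5 := Submodule.smul_mem _ (c j)⁻¹ h4
      rw [smul_smul, inv_mul_cancel₀ hj, one_smul] at h5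
      exact h5
    have hle2 : Ideal.span (Set.range f) ≤ Ideal.span (Set.range g0) := by
      rw [Ideal.span_le]
      rintro _ ⟨k, rfl⟩
      by_cases hk : k = j
      · rw [hk]; exact hfj
      · exact Ideal.subset_span ⟨k, hg0i k hk⟩
    exact hle2 (hD p hp)
  · simp only [Equiv.swap_apply_right]
    exact hg0j
  · beta_reduce
    generalize Equiv.swap j (Fin.last n) i = k
    by_cases hk : k = j
    · rw [hk, hg0j]; exact hqI
    · rw [hg0i k hk]; exact Ideal.subset_span ⟨k, rfl⟩

theorem perm_of_card (s : Finset (Fin n)) (hs : s.card ≤ 4) :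
    ∃ e : Equiv.Perm (Fin n), ∀ i : Fin n, 4 ≤ i.val → e i ∉ s := by
  have hsn : s.card ≤ n := by
    have := Finset.card_le_univ s
    simpa using this
  obtain ⟨t, ht, htc⟩ : ∃ t : Finset (Fin n), (∀ i : Fin n, 4 ≤ i.val → i ∉ t) ∧ t.card = s.card := by
    refine ⟨Finset.univ.filter fun i : Fin n => i.val < s.card, fun i hi hm => ?_, ?_⟩
    · have := (Finset.mem_filter.1 hm).2
      omega
    · rw [Fin.card_filter_val_lt]
      omega
  let e := (Finset.equivOfCardEq htc : {x // x ∈ t} ≃ {x // x ∈ s})
  refine ⟨e.extendSubtype, fun i hi => ?_⟩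
  exact e.extendSubtype_not_mem i (ht i hi)

theorem prim_perm (f : Fin n → MvPolynomial (Fin n) K) (e : Equiv.Perm (Fin n)) (hp : Prim f) : Prim (f ∘ e) := by
  unfold Prim
  rw [e.surjective.range_comp]
  exact hp

end Vale.Agent.P200E
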