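import Vale.Agent.P200E.KK
import Vale.Agent.P200E.SubEx
import Vale.Agent.P200E.HFa
import Vale.Agent.P200E.HFb
import Vale.Agent.P200E.Red
import Vale.Agent.P200E.Swap

/-! P200: the induction on the number of variables. -/

namespace Vale.Agent.P200E

open MvPolynomial

variable {K : Type*} [Field K]

theorem main_le_colon {n : ℕ} (I : Ideal (MvPolynomial (Fin n) K)) (l : MvPolynomial (Fin n) K) :
    I ≤ colonI I l := fun p hp => by
  rw [mem_colonI]
  exact I.mul_mem_left l hp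

/-- The restricted sequence. -/
theorem main_restrict {n : ℕ} {f : Fin (n + 1) → MvPolynomial (Fin (n + 1)) K}
    (hf : ∀ i, (f i).IsHomogeneous 2) (hp : Prim f)
    (hs : ∀ i : Fin n, 4 ≤ i.val → Splits2 (f i.castSucc))
    {l : MvPolynomial (Fin (n + 1)) K} (σ : Sub l) (h0 : σ.s (f (Fin.last n)) = 0) :
    (∀ i : Fin n, (σ.s (f i.castSucc)).IsHomogeneous 2) ∧
      Prim (fun i : Fin n => σ.s (f i.castSucc)) ∧
      ∀ i : Fin n, 4 ≤ i.val → Splits2 (σ.s (f i.castSucc)) := by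
  refine ⟨fun i => σ.hs _ _ (hf _), ?_, fun i hi => ?_⟩
  · obtain ⟨D, hD⟩ := hp
    refine ⟨D, fun q hq => ?_⟩
    have h1 := hD (σ.t q) (σ.ht q D hq)
    have h2 : σ.s (σ.t q) ∈ (Ideal.span (Set.range f)).map σ.s := Ideal.mem_map_of_mem _ h1
    rw [σ.st q, Ideal.map_span] at h2
    refine (Ideal.span_le.2 ?_) h2
    rintro x ⟨y, ⟨i, rfl⟩, rfl⟩
    refine Fin.lastCases ?_ (fun j => ?_) i
    · have h0' : (σ.s : MvPolynomial (Fin (n + 1)) K → MvPolynomial (Fin n) K) (f (Fin.last n)) = 0 := h0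
      rw [h0']
      exact Ideal.zero_mem _
    · exact Ideal.subset_span ⟨j, rfl⟩
  · obtain ⟨a, b, ha, hb, hab⟩ := hs i hi
    exact ⟨σ.s a, σ.s b, σ.hs _ _ ha, σ.hs _ _ hb, by rw [hab, map_mul]⟩

/-- induction hypothesis -/
def Grow (K : Type*) [Field K] (n : ℕ) : Prop :=
  ∀ (f : Fin n → MvPolynomial (Fin n) K), (∀ i, (f i).IsHomogeneous 2) → Prim f →
    (∀ i, 4 ≤ i.val → Splits2 (f i)) → ∀ I : Ideal (MvPolynomial (Fin n) K), IsHomog I → (∀ i, f i ∈ I) →
    ∀ d, G n d (HF I d) (HF I (d + 1))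

theorem main_sub_zero {n : ℕ} {l : MvPolynomial (Fin (n + 1)) K} (σ : Sub l) : σ.s l = 0 :=
  (σ.ker l).2 (Ideal.subset_span rfl)

/-- one of the two orders -/
theorem main_step_aux {n : ℕ} (IH : Grow K n) {f : Fin (n + 1) → MvPolynomial (Fin (n + 1)) K}
    (hf : ∀ i, (f i).IsHomogeneous 2) (hp : Prim f)
    (hs : ∀ i : Fin n, 4 ≤ i.val → Splits2 (f i.castSucc))
    {l l' : MvPolynomial (Fin (n + 1)) K} (hl : l.IsHomogeneous 1) (hl' : l'.IsHomogeneous 1)
    (h0 : l ≠ 0) (h0' : l' ≠ 0) (hll : f (Fin.last n) = l * l')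
    {I : Ideal (MvPolynomial (Fin (n + 1)) K)} (hI : IsHomog I) (hfI : ∀ i, f i ∈ I) (d : ℕ)
    (hsw : HF (I ⊔ Ideal.span {l'}) d ≤ HF (I ⊔ Ideal.span {l}) d) :
    G (n + 1) d (HF I d) (HF I (d + 1)) := by
  obtain ⟨σ⟩ := exists_sub l hl h0
  obtain ⟨τ⟩ := exists_sub l' hl' h0'
  have hσ0 : σ.s (f (Fin.last n)) = 0 := by rw [hll, map_mul, main_sub_zero, zero_mul]
  have hτ0 : τ.s (f (Fin.last n)) = 0 := by rw [hll, map_mul, main_sub_zero, mul_zero]
  obtain ⟨hf1, hp1, hs1⟩ := main_restrict hf hp hs σ hσ0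
  obtain ⟨hf2, hp2, hs2⟩ := main_restrict hf hp hs τ hτ0
  have hGB : ∀ e, G n e (HF (I.map σ.s) e) (HF (I.map σ.s) (e + 1)) :=
    IH _ hf1 hp1 hs1 _ (homog_map_sub σ hI) (fun i => Ideal.mem_map_of_mem _ (hfI _))
  have hGC : ∀ e, G n e (HF ((colonI I l).map τ.s) e) (HF ((colonI I l).map τ.s) (e + 1)) :=
    IH _ hf2 hp2 hs2 _ (homog_map_sub τ (homog_colon hI hl))
      (fun i => Ideal.mem_map_of_mem _ (main_le_colon I l (hfI _)))
  have hB : ∀ e, HF (I.map σ.s) e = HF (I ⊔ Ideal.span {l}) e := fun e => HF_map_sub σ I e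
  have hl'C : l' ∈ colonI I l := by
    rw [mem_colonI, ← hll]
    exact hfI _
  have hC : ∀ e, HF ((colonI I l).map τ.s) e = HF (colonI I l) e := fun e => by
    rw [HF_map_sub τ (colonI I l) e]
    congr 1
    rw [sup_eq_left, Ideal.span_le, Set.singleton_subset_iff]
    exact hl'C
  have hCle : ∀ e, HF (colonI I l) e ≤ HF (I ⊔ Ideal.span {l'}) e := fun e => by
    refine HF_anti ?_ e
    refine sup_le (main_le_colon I l) ?_
    rw [Ideal.span_le, Set.singleton_subset_iff]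
    exact hl'C
  cases d with
  | zero =>
    have h1 := hGB 0
    rw [hB 0, hB (0 + 1), HF_deg_zero hI hl] at h1
    have h2 : HF (colonI I l) 0 ≤ HF I 0 := HF_anti (main_le_colon I l) 0
    have h3 := kk_step0 n _ _ _ h1 h2
    rwa [← HF_exact hI hl 0] at h3
  | succ d =>
    have h1 := hGB (d + 1)
    rw [hB (d + 1), hB (d + 1 + 1)] at h1
    have h2 := hGC d
    rw [hC d, hC (d + 1)] at h2
    have h3 := kk_step n d _ _ _ _ h1 h2 ((hCle (d + 1)).trans hsw)
    rwa [← HF_exact hI hl d, ← HF_exact hI hl (d + 1)] at h3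

theorem main_step {n : ℕ} (IH : Grow K n) {f : Fin (n + 1) → MvPolynomial (Fin (n + 1)) K}
    (hf : ∀ i, (f i).IsHomogeneous 2) (hp : Prim f)
    (hs : ∀ i : Fin n, 4 ≤ i.val → Splits2 (f i.castSucc))
    {l l' : MvPolynomial (Fin (n + 1)) K} (hl : l.IsHomogeneous 1) (hl' : l'.IsHomogeneous 1)
    (h0 : l ≠ 0) (h0' : l' ≠ 0) (hll : f (Fin.last n) = l * l')
    {I : Ideal (MvPolynomial (Fin (n + 1)) K)} (hI : IsHomog I) (hfI : ∀ i, f i ∈ I) (d : ℕ) :
    G (n + 1) d (HF I d) (HF I (d + 1)) := by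
  rcases le_total (HF (I ⊔ Ideal.span {l'}) d) (HF (I ⊔ Ideal.span {l}) d) with h | h
  · exact main_step_aux IH hf hp hs hl hl' h0 h0' hll hI hfI d h
  · exact main_step_aux IH hf hp hs hl' hl h0' h0 (by rw [hll, mul_comm]) hI hfI d h

theorem growth [IsAlgClosed K] (n : ℕ) : Grow K n := by
  induction n with
  | zero =>
    intro f hf hp hs I hI hfI d
    rw [HF_noVar I d]
    refine kk_base d _ ?_
    cases d with
    | zero => simpa using HF_zero_le I
    | succ d => rw [HF_noVar I d]; exact Nat.zero_le _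
  | succ n IH =>
    intro f hf hp hs I hI hfI d
    by_cases hn : n + 1 ≤ 4
    · obtain ⟨l, l', hl, hl', h0, h0', hq⟩ := red (n + 1) (Nat.succ_le_succ (Nat.zero_le n)) hn f hf
        (li_of_prim f hf hp)
      obtain ⟨g, hg, hpg, hgl, hgI⟩ := replace_last f hf hp (l * l') (mul_ne_zero h0 h0') hq
      have hgI' : ∀ i, g i ∈ I := fun i => by
        refine (Ideal.span_le.2 ?_) (hgI i)
        rintro x ⟨j, rfl⟩
        exact hfI j
      refine main_step IH hg hpg (fun i hi => ?_) hl hl' h0 h0' hgl hI hgI' d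
      have := i.isLt
      omega
    · obtain ⟨l, l', hl, hl', hq⟩ := hs (Fin.last n) (by rw [Fin.val_last]; omega)
      have hne : f (Fin.last n) ≠ 0 := (li_of_prim f hf hp).ne_zero _
      rw [hq] at hne
      refine main_step IH hf hp (fun i hi => hs _ (by simpa using hi)) hl hl' (left_ne_zero_of_mul hne)
        (right_ne_zero_of_mul hne) hq hI hfI d

end Vale.Agent.P200E
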